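import Mathlib

namespace Vale.Agent.Lib.P141

open MeasureTheory
open scoped ENNReal NNReal ContDiff

/-- A fixed smooth bump on the real line: equal to `1` on `[-1/4, 1/4]`, supported in
`(-1/2, 1/2)`, with values in `[0, 1]`. -/
noncomputable def bump0 : ContDiffBump (0 : ℝ) := ⟨1 / 4, 1 / 2, by norm_num, by norm_num⟩

/-- The sum of the translates of the bump to the points `y + c`, `y ∈ A`. -/
noncomputable def comb (A : Finset ℤ) (c : ℝ) (u : ℝ) : ℝ := ∑ y ∈ A, bump0 (u - y - c)

theorem comb_nonneg (A : Finset ℤ) (c u : ℝ) : 0 ≤ comb A c u :=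
  Finset.sum_nonneg (fun _ _ => bump0.nonneg)

theorem bump0_eq_zero {v : ℝ} (h : 1 / 2 ≤ |v|) : bump0 v = 0 := by
  apply bump0.zero_of_le_dist
  simpa [bump0, Real.dist_eq] using h

theorem bump0_eq_one {v : ℝ} (h : |v| ≤ 1 / 4) : bump0 v = 1 := by
  apply bump0.one_of_mem_closedBall
  simpa [bump0, Metric.mem_closedBall, Real.dist_eq] using h

theorem comb_ne_zero {A : Finset ℤ} {c u : ℝ} (h : comb A c u ≠ 0) :
    ∃ y ∈ A, |u - y - c| < 1 / 2 := by
  obtain ⟨y, hy, hne⟩ := Finset.exists_ne_zero_of_sum_ne_zero h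
  refine ⟨y, hy, ?_⟩
  by_contra hcon
  exact hne (bump0_eq_zero (not_lt.mp hcon))

theorem comb_le_one (A : Finset ℤ) (c u : ℝ) : comb A c u ≤ 1 := by
  by_cases h : comb A c u = 0
  · rw [h]; exact zero_le_one
  · obtain ⟨y, hy, hlt⟩ := comb_ne_zero h
    have hsingle : comb A c u = bump0 (u - y - c) := by
      apply Finset.sum_eq_single_of_mem y hy
      intro y' hy' hne
      apply bump0_eq_zero
      have h1 : (1 : ℝ) ≤ |(y : ℝ) - y'| := by
        have h2 : (1 : ℤ) ≤ |y - y'| := Int.one_le_abs (sub_ne_zero.mpr hne.symm)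
        exact_mod_cast h2
      by_contra hcon
      rw [not_le] at hcon
      have h3 : |(y : ℝ) - y'| < 1 := by
        calc |(y : ℝ) - y'| = |(u - y' - c) - (u - y - c)| := by ring_nf
          _ ≤ |u - y' - c| + |u - y - c| := abs_sub _ _
          _ < 1 / 2 + 1 / 2 := add_lt_add hcon hlt
          _ = 1 := by norm_num
      linarith
    rw [hsingle]; exact bump0.le_one

theorem one_le_comb {A : Finset ℤ} {c u : ℝ} {y : ℤ} (hy : y ∈ A) (h : |u - y - c| ≤ 1 / 4) :
    1 ≤ comb A c u := by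
  calc (1 : ℝ) = bump0 (u - y - c) := (bump0_eq_one h).symm
    _ ≤ comb A c u :=
      Finset.single_le_sum (f := fun y : ℤ => bump0 (u - y - c)) (fun _ _ => bump0.nonneg) hy

theorem contDiff_comb (A : Finset ℤ) (c : ℝ) : ContDiff ℝ ∞ (comb A c) := by
  unfold comb
  apply ContDiff.sum
  intro y _
  exact bump0.contDiff.comp ((contDiff_id.sub contDiff_const).sub contDiff_const)

theorem continuous_comb (A : Finset ℤ) (c : ℝ) : Continuous (comb A c) :=
  (contDiff_comb A c).continuous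

theorem hasCompactSupport_combC (A : Finset ℤ) (c : ℝ) :
    HasCompactSupport (fun u : ℝ => ((comb A c u : ℝ) : ℂ)) := by
  apply HasCompactSupport.intro
    (A.isCompact_biUnion (f := fun y : ℤ => Metric.closedBall ((y : ℝ) + c) (1 / 2))
      (fun y _ => isCompact_closedBall _ _))
  intro u hu
  by_contra hne
  have hne' : comb A c u ≠ 0 := by
    intro h0; apply hne; rw [h0]; simp
  obtain ⟨y, hy, hlt⟩ := comb_ne_zero hne'
  apply hu
  simp only [Set.mem_iUnion, Metric.mem_closedBall, Real.dist_eq]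
  refine ⟨y, hy, ?_⟩
  have : u - (y + c) = u - y - c := by ring
  rw [this]; exact hlt.le

theorem contDiff_combC (A : Finset ℤ) (c : ℝ) :
    ContDiff ℝ ∞ (fun u : ℝ => ((comb A c u : ℝ) : ℂ)) :=
  Complex.ofRealCLM.contDiff.comp (contDiff_comb A c)

/-- The comb as a complex-valued Schwartz function. -/
noncomputable def combS (A : Finset ℤ) (c : ℝ) : SchwartzMap ℝ ℂ :=
  (hasCompactSupport_combC A c).toSchwartzMap (contDiff_combC A c)

theorem combS_apply (A : Finset ℤ) (c u : ℝ) : combS A c u = ((comb A c u : ℝ) : ℂ) := rfl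

theorem eLpNorm_combS_le (A : Finset ℤ) (c : ℝ) (p : ℝ≥0∞) :
    eLpNorm (combS A c) p volume ≤ (A.card : ℝ≥0∞) ^ (1 / p.toReal) := by
  set S : Set ℝ := ⋃ y ∈ A, Set.Icc ((y : ℝ) + c - 1 / 2) ((y : ℝ) + c + 1 / 2) with hS
  have hpt : ∀ u : ℝ, ‖combS A c u‖ₑ ≤ ‖S.indicator (fun _ => (1 : ℝ)) u‖ₑ := by
    intro u
    by_cases hu : u ∈ S
    · rw [Set.indicator_of_mem hu, combS_apply]
      rw [enorm_le_iff_norm_le]
      simp only [Complex.norm_real, Real.norm_eq_abs, abs_one]
      rw [abs_of_nonneg (comb_nonneg A c u)]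
      exact comb_le_one A c u
    · have h0 : comb A c u = 0 := by
        by_contra hne
        obtain ⟨y, hy, hlt⟩ := comb_ne_zero hne
        apply hu
        simp only [hS, Set.mem_iUnion, Set.mem_Icc]
        have := abs_lt.mp hlt
        exact ⟨y, hy, by linarith [this.1], by linarith [this.2]⟩
      rw [combS_apply, h0]
      simp
  have hmeas : volume S ≤ (A.card : ℝ≥0∞) := by
    calc volume S ≤ ∑ y ∈ A, volume (Set.Icc ((y : ℝ) + c - 1 / 2) ((y : ℝ) + c + 1 / 2)) :=
          measure_biUnion_finset_le A _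
      _ = ∑ y ∈ A, (1 : ℝ≥0∞) := by
          apply Finset.sum_congr rfl
          intro y _
          rw [Real.volume_Icc]
          have : (y : ℝ) + c + 1 / 2 - ((y : ℝ) + c - 1 / 2) = 1 := by ring
          rw [this]; simp
      _ = (A.card : ℝ≥0∞) := by simp
  calc eLpNorm (combS A c) p volume
      ≤ eLpNorm (S.indicator (fun _ => (1 : ℝ))) p volume := eLpNorm_mono_enorm hpt
    _ ≤ ‖(1 : ℝ)‖ₑ * volume S ^ (1 / p.toReal) := eLpNorm_indicator_const_le _ _
    _ = volume S ^ (1 / p.toReal) := by simp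
    _ ≤ (A.card : ℝ≥0∞) ^ (1 / p.toReal) :=
        ENNReal.rpow_le_rpow hmeas (by positivity)

end Vale.Agent.Lib.P141
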