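import Mathlib

namespace Vale.Agent.Lib.P141

open MeasureTheory Filter Topology
open scoped ENNReal NNReal

/-- The truncated trilinear Hilbert transform (slopes 1, 2, 3):
the integral of `f1 (x - t) * f2 (x - 2 t) * f3 (x - 3 t) / t` over `ε < |t| < R`. -/
noncomputable def truncTHT (f1 f2 f3 : ℝ → ℂ) (ε R x : ℝ) : ℂ :=
  ∫ t in {t : ℝ | ε < |t| ∧ |t| < R},
    f1 (x - t) * f2 (x - 2 * t) * f3 (x - 3 * t) / (t : ℂ)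

/-- The trilinear Hilbert transform as a principal value:
the limit of the truncations as `ε → 0+` and `R → +∞` (jointly). -/
noncomputable def triHilbert (f1 f2 f3 : ℝ → ℂ) (x : ℝ) : ℂ :=
  limUnder ((𝓝[>] (0 : ℝ)) ×ˢ (atTop : Filter ℝ))
    (fun p : ℝ × ℝ => truncTHT f1 f2 f3 p.1 p.2 x)

/-- Holder tuples `(p1, p2, p3, r)`: `1 < p_i ≤ ∞`, `0 < r < ∞`, `1/r = 1/p1 + 1/p2 + 1/p3`. -/
def IsHolderTuple (p1 p2 p3 r : ℝ≥0∞) : Prop :=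
  1 < p1 ∧ 1 < p2 ∧ 1 < p3 ∧ 0 < r ∧ r < ∞ ∧ 1 / r = 1 / p1 + 1 / p2 + 1 / p3

/-- `T` is bounded at `(p1, p2, p3, r)`: there is a finite constant `C` with
`‖T(f1,f2,f3)‖_{L^r} ≤ C ‖f1‖_{L^p1} ‖f2‖_{L^p2} ‖f3‖_{L^p3}` for all Schwartz `f1, f2, f3`. -/
def BoundedAt (p1 p2 p3 r : ℝ≥0∞) : Prop :=
  ∃ C : ℝ≥0, ∀ f1 f2 f3 : SchwartzMap ℝ ℂ,
    eLpNorm (triHilbert f1 f2 f3) r volume ≤
      C * eLpNorm f1 p1 volume * eLpNorm f2 p2 volume * eLpNorm f3 p3 volume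

end Vale.Agent.Lib.P141
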