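import Mathlib
import Vale.Agent.Lib.P141.Defs
import Vale.Agent.Lib.P141.Comb

namespace Vale.Agent.Lib.P141

open MeasureTheory Filter Topology
open scoped ENNReal NNReal

/-- The real integrand of the trilinear Hilbert transform for the three shifted combs. -/
noncomputable def kern (A1 A2 A3 : Finset ℤ) (L x t : ℝ) : ℝ :=
  comb A1 (2 * L) (x - t) * comb A2 L (x - 2 * t) * comb A3 0 (x - 3 * t) / t

theorem kern_support {A1 A2 A3 : Finset ℤ} {B L x t : ℝ}
    (hB1 : ∀ y ∈ A1, |(y : ℝ)| ≤ B) (hB2 : ∀ y ∈ A2, |(y : ℝ)| ≤ B)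
    (h : kern A1 A2 A3 L x t ≠ 0) : L - 2 * B - 1 < t ∧ t < L + 2 * B + 1 := by
  have h1 : comb A1 (2 * L) (x - t) ≠ 0 := by
    intro h0; apply h; simp [kern, h0]
  have h2 : comb A2 L (x - 2 * t) ≠ 0 := by
    intro h0; apply h; simp [kern, h0]
  obtain ⟨y1, hy1, hlt1⟩ := comb_ne_zero h1
  obtain ⟨y2, hy2, hlt2⟩ := comb_ne_zero h2
  have b1 := abs_le.mp (hB1 y1 hy1)
  have b2 := abs_le.mp (hB2 y2 hy2)
  have c1 := abs_lt.mp hlt1
  have c2 := abs_lt.mp hlt2
  constructor <;> linarith [b1.1, b1.2, b2.1, b2.2, c1.1, c1.2, c2.1, c2.2]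

theorem truncTHT_combS_eq {A1 A2 A3 : Finset ℤ} {B L : ℝ}
    (hB1 : ∀ y ∈ A1, |(y : ℝ)| ≤ B) (hB2 : ∀ y ∈ A2, |(y : ℝ)| ≤ B)
    (ε R x : ℝ) (hε : ε ≤ L - 2 * B - 1) (hpos : 0 < L - 2 * B - 1)
    (hR : L + 2 * B + 1 ≤ R) :
    truncTHT (combS A1 (2 * L)) (combS A2 L) (combS A3 0) ε R x =
      ((∫ t in Set.Ioo (L - 2 * B - 1) (L + 2 * B + 1), kern A1 A2 A3 L x t : ℝ) : ℂ) := by
  unfold truncTHT
  have hint : ∀ t : ℝ, (combS A1 (2 * L)) (x - t) * (combS A2 L) (x - 2 * t) *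
      (combS A3 0) (x - 3 * t) / (t : ℂ) = ((kern A1 A2 A3 L x t : ℝ) : ℂ) := by
    intro t
    simp only [combS_apply, kern]
    push_cast
    ring
  simp only [hint]
  rw [integral_complex_ofReal]
  congr 1
  apply setIntegral_eq_of_subset_of_forall_sdiff_eq_zero
  · exact (measurableSet_lt measurable_const continuous_abs.measurable).inter
      (measurableSet_lt continuous_abs.measurable measurable_const)
  · intro t ht
    simp only [Set.mem_Ioo] at ht
    have h0 : 0 < t := by linarith [ht.1]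
    show ε < |t| ∧ |t| < R
    rw [abs_of_pos h0]
    exact ⟨by linarith [ht.1], by linarith [ht.2]⟩
  · intro t ht
    by_contra hne
    exact ht.2 (kern_support hB1 hB2 hne)

theorem triHilbert_combS_eq {A1 A2 A3 : Finset ℤ} {B L : ℝ}
    (hB1 : ∀ y ∈ A1, |(y : ℝ)| ≤ B) (hB2 : ∀ y ∈ A2, |(y : ℝ)| ≤ B)
    (hpos : 0 < L - 2 * B - 1) (x : ℝ) :
    triHilbert (combS A1 (2 * L)) (combS A2 L) (combS A3 0) x =
      ((∫ t in Set.Ioo (L - 2 * B - 1) (L + 2 * B + 1), kern A1 A2 A3 L x t : ℝ) : ℂ) := by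
  unfold triHilbert
  apply Filter.Tendsto.limUnder_eq
  apply tendsto_const_nhds.congr'
  have h1 : ∀ᶠ ε in 𝓝[>] (0 : ℝ), ε ≤ L - 2 * B - 1 := by
    have h0 : ∀ᶠ ε in 𝓝 (0 : ℝ), ε < L - 2 * B - 1 := eventually_lt_nhds hpos
    exact (h0.filter_mono nhdsWithin_le_nhds).mono (fun ε h => h.le)
  have h2 : ∀ᶠ R in (atTop : Filter ℝ), L + 2 * B + 1 ≤ R := eventually_ge_atTop _
  filter_upwards [h1.prod_mk h2] with p hp
  exact (truncTHT_combS_eq hB1 hB2 p.1 p.2 x hp.1 hpos hp.2).symm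

theorem kern_nonneg (A1 A2 A3 : Finset ℤ) (L x : ℝ) {t : ℝ} (ht : 0 ≤ t) :
    0 ≤ kern A1 A2 A3 L x t := by
  unfold kern
  exact div_nonneg (mul_nonneg (mul_nonneg (comb_nonneg _ _ _) (comb_nonneg _ _ _))
    (comb_nonneg _ _ _)) ht

theorem continuousOn_kern (A1 A2 A3 : Finset ℤ) (L x : ℝ) :
    ContinuousOn (kern A1 A2 A3 L x) {t : ℝ | t ≠ 0} := by
  unfold kern
  apply ContinuousOn.div
  · apply Continuous.continuousOn
    exact (((continuous_comb A1 (2 * L)).comp (continuous_const.sub continuous_id)).mul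
      ((continuous_comb A2 L).comp (continuous_const.sub (continuous_const.mul continuous_id)))).mul
      ((continuous_comb A3 0).comp (continuous_const.sub (continuous_const.mul continuous_id)))
  · exact continuous_id.continuousOn
  · intro t ht; exact ht

theorem integrableOn_kern (A1 A2 A3 : Finset ℤ) (L x : ℝ) {a b : ℝ} (ha : 0 < a) :
    IntegrableOn (kern A1 A2 A3 L x) (Set.Ioo a b) volume := by
  have hc : ContinuousOn (kern A1 A2 A3 L x) (Set.Icc a b) := by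
    apply (continuousOn_kern A1 A2 A3 L x).mono
    intro t ht
    show t ≠ 0
    have := ht.1
    linarith
  exact hc.integrableOn_Icc.mono_set Set.Ioo_subset_Icc_self

theorem kern_integral_lower {A1 A2 A3 : Finset ℤ} {B L x : ℝ}
    (hpos : 0 < L - 2 * B - 1)
    (x' t' : ℤ) (h1 : x' - t' ∈ A1) (h2 : x' - 2 * t' ∈ A2) (h3 : x' - 3 * t' ∈ A3)
    (ht' : |(t' : ℝ)| ≤ 2 * B)
    (hx : |x - (x' + 3 * L)| ≤ 1 / 16) :
    (1 / 8) / (L + 2 * B + 1) ≤
      ∫ t in Set.Ioo (L - 2 * B - 1) (L + 2 * B + 1), kern A1 A2 A3 L x t := by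
  have hb : 0 < L + 2 * B + 1 := by
    have := abs_nonneg (t' : ℝ)
    linarith
  have htb := abs_le.mp ht'
  have hxb := abs_le.mp hx
  have hsub : Set.Icc ((t' : ℝ) + L - 1 / 16) ((t' : ℝ) + L + 1 / 16) ⊆
      Set.Ioo (L - 2 * B - 1) (L + 2 * B + 1) := by
    intro t ht
    simp only [Set.mem_Icc] at ht
    simp only [Set.mem_Ioo]
    constructor <;> linarith [ht.1, ht.2, htb.1, htb.2]
  have hint := integrableOn_kern A1 A2 A3 L x (b := L + 2 * B + 1) hpos
  have hstep1 : (1 / 8) / (L + 2 * B + 1) =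
      ∫ _t in Set.Icc ((t' : ℝ) + L - 1 / 16) ((t' : ℝ) + L + 1 / 16), (1 / (L + 2 * B + 1)) := by
    rw [setIntegral_const]
    have : (t' : ℝ) + L + 1 / 16 - ((t' : ℝ) + L - 1 / 16) = 1 / 8 := by ring
    simp only [Real.volume_real_Icc, this, smul_eq_mul]
    rw [max_eq_left (by norm_num)]
    ring
  have hstep2 : ∫ _t in Set.Icc ((t' : ℝ) + L - 1 / 16) ((t' : ℝ) + L + 1 / 16),
      (1 / (L + 2 * B + 1)) ≤
      ∫ t in Set.Icc ((t' : ℝ) + L - 1 / 16) ((t' : ℝ) + L + 1 / 16), kern A1 A2 A3 L x t := by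
    apply setIntegral_mono_on _ (hint.mono_set hsub) measurableSet_Icc
    · intro t ht
      have htI := hsub ht
      simp only [Set.mem_Ioo] at htI
      simp only [Set.mem_Icc] at ht
      have ht0 : 0 < t := by linarith [htI.1]
      have hc1 : 1 ≤ comb A1 (2 * L) (x - t) := by
        apply one_le_comb h1
        rw [abs_le]
        push_cast
        constructor <;> linarith [ht.1, ht.2, hxb.1, hxb.2]
      have hc2 : 1 ≤ comb A2 L (x - 2 * t) := by
        apply one_le_comb h2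
        rw [abs_le]
        push_cast
        constructor <;> linarith [ht.1, ht.2, hxb.1, hxb.2]
      have hc3 : 1 ≤ comb A3 0 (x - 3 * t) := by
        apply one_le_comb h3
        rw [abs_le]
        push_cast
        constructor <;> linarith [ht.1, ht.2, hxb.1, hxb.2]
      have hprod : 1 ≤ comb A1 (2 * L) (x - t) * comb A2 L (x - 2 * t) *
          comb A3 0 (x - 3 * t) := by
        have h12 : 1 ≤ comb A1 (2 * L) (x - t) * comb A2 L (x - 2 * t) := by nlinarith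
        nlinarith
      unfold kern
      calc 1 / (L + 2 * B + 1) ≤ 1 / t := by
            apply one_div_le_one_div_of_le ht0 htI.2.le
        _ ≤ comb A1 (2 * L) (x - t) * comb A2 L (x - 2 * t) * comb A3 0 (x - 3 * t) / t := by
            apply div_le_div_of_nonneg_right hprod ht0.le
    · exact integrableOn_const (by
        rw [Real.volume_Icc]; exact ENNReal.ofReal_ne_top)
  have hstep3 : ∫ t in Set.Icc ((t' : ℝ) + L - 1 / 16) ((t' : ℝ) + L + 1 / 16),
      kern A1 A2 A3 L x t ≤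
      ∫ t in Set.Ioo (L - 2 * B - 1) (L + 2 * B + 1), kern A1 A2 A3 L x t := by
    apply setIntegral_mono_set hint
    · rw [EventuallyLE, ae_restrict_iff' measurableSet_Ioo]
      apply Eventually.of_forall
      intro t ht
      simp only [Set.mem_Ioo] at ht
      exact kern_nonneg A1 A2 A3 L x (by linarith [ht.1])
    · exact Eventually.of_forall hsub
  rw [hstep1]
  exact le_trans hstep2 hstep3

theorem norm_triHilbert_lower {A1 A2 A3 : Finset ℤ} {B L x : ℝ}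
    (hB1 : ∀ y ∈ A1, |(y : ℝ)| ≤ B) (hB2 : ∀ y ∈ A2, |(y : ℝ)| ≤ B)
    (hpos : 0 < L - 2 * B - 1)
    (x' t' : ℤ) (h1 : x' - t' ∈ A1) (h2 : x' - 2 * t' ∈ A2) (h3 : x' - 3 * t' ∈ A3)
    (hx : |x - (x' + 3 * L)| ≤ 1 / 16) :
    (1 / 8) / (L + 2 * B + 1) ≤
      ‖triHilbert (combS A1 (2 * L)) (combS A2 L) (combS A3 0) x‖ := by
  have ht' : |(t' : ℝ)| ≤ 2 * B := by
    have e : (t' : ℝ) = ((x' - t' : ℤ) : ℝ) - ((x' - 2 * t' : ℤ) : ℝ) := by push_cast; ring
    rw [e]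
    calc |((x' - t' : ℤ) : ℝ) - ((x' - 2 * t' : ℤ) : ℝ)|
        ≤ |((x' - t' : ℤ) : ℝ)| + |((x' - 2 * t' : ℤ) : ℝ)| := abs_sub _ _
      _ ≤ B + B := add_le_add (hB1 _ h1) (hB2 _ h2)
      _ = 2 * B := by ring
  rw [triHilbert_combS_eq hB1 hB2 hpos x, Complex.norm_real, Real.norm_eq_abs]
  exact le_trans (kern_integral_lower hpos x' t' h1 h2 h3 ht' hx) (le_abs_self _)

theorem eLpNorm_triHilbert_lower {A1 A2 A3 : Finset ℤ} {B L : ℝ}
    (hB0 : 0 ≤ B)
    (hB1 : ∀ y ∈ A1, |(y : ℝ)| ≤ B) (hB2 : ∀ y ∈ A2, |(y : ℝ)| ≤ B)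
    (hpos : 0 < L - 2 * B - 1)
    (X : Finset ℤ)
    (hX : ∀ x' ∈ X, ∃ t' : ℤ, x' - t' ∈ A1 ∧ x' - 2 * t' ∈ A2 ∧ x' - 3 * t' ∈ A3)
    (r : ℝ≥0∞) (hr0 : r ≠ 0) (hrtop : r ≠ ∞) :
    ENNReal.ofReal ((1 / 8) / (L + 2 * B + 1)) *
        ((X.card : ℝ≥0∞) * ENNReal.ofReal (1 / 8)) ^ (1 / r.toReal) ≤
      eLpNorm (triHilbert (combS A1 (2 * L)) (combS A2 L) (combS A3 0)) r volume := by
  set c : ℝ := (1 / 8) / (L + 2 * B + 1) with hc
  have hc0 : 0 ≤ c := by
    rw [hc]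
    apply div_nonneg (by norm_num)
    linarith
  set U : Set ℝ := ⋃ x' ∈ X, Set.Icc ((x' : ℝ) + 3 * L - 1 / 16) ((x' : ℝ) + 3 * L + 1 / 16)
    with hU
  have hUmeas : MeasurableSet U :=
    Finset.measurableSet_biUnion X (fun _ _ => measurableSet_Icc)
  have hpt : ∀ x : ℝ, ‖U.indicator (fun _ => c) x‖ₑ ≤
      ‖triHilbert (combS A1 (2 * L)) (combS A2 L) (combS A3 0) x‖ₑ := by
    intro x
    by_cases hx : x ∈ U
    · rw [Set.indicator_of_mem hx]
      simp only [hU, Set.mem_iUnion, Set.mem_Icc] at hx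
      obtain ⟨x', hx'X, hx1, hx2⟩ := hx
      obtain ⟨t', h1, h2, h3⟩ := hX x' hx'X
      rw [enorm_le_iff_norm_le, Real.norm_eq_abs, abs_of_nonneg hc0]
      apply norm_triHilbert_lower hB1 hB2 hpos x' t' h1 h2 h3
      rw [abs_le]
      constructor <;> linarith
    · rw [Set.indicator_of_notMem hx]
      simp
  have hvol : volume U = (X.card : ℝ≥0∞) * ENNReal.ofReal (1 / 8) := by
    rw [hU, measure_biUnion_finset]
    · have hterm : ∀ x' ∈ X, volume (Set.Icc ((x' : ℝ) + 3 * L - 1 / 16)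
          ((x' : ℝ) + 3 * L + 1 / 16)) = ENNReal.ofReal (1 / 8) := by
        intro x' _
        rw [Real.volume_Icc]
        congr 1
        ring
      rw [Finset.sum_congr rfl hterm, Finset.sum_const, nsmul_eq_mul]
    · intro x1 _ x2 _ hne
      rw [Function.onFun, Set.disjoint_left]
      intro u hu1 hu2
      simp only [Set.mem_Icc] at hu1 hu2
      have hlt : |(x1 : ℝ) - x2| < 1 := by
        rw [abs_lt]
        constructor <;> linarith [hu1.1, hu1.2, hu2.1, hu2.2]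
      have hge : (1 : ℝ) ≤ |(x1 : ℝ) - x2| := by
        have h2 : (1 : ℤ) ≤ |x1 - x2| := Int.one_le_abs (sub_ne_zero.mpr hne)
        exact_mod_cast h2
      linarith
    · intro x' _
      exact measurableSet_Icc
  calc ENNReal.ofReal c * ((X.card : ℝ≥0∞) * ENNReal.ofReal (1 / 8)) ^ (1 / r.toReal)
      = ‖c‖ₑ * volume U ^ (1 / r.toReal) := by rw [hvol, Real.enorm_eq_ofReal hc0]
    _ = eLpNorm (U.indicator (fun _ => c)) r volume :=
        (eLpNorm_indicator_const hUmeas hr0 hrtop).symm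
    _ ≤ eLpNorm (triHilbert (combS A1 (2 * L)) (combS A2 L) (combS A3 0)) r volume :=
        eLpNorm_mono_enorm hpt

end Vale.Agent.Lib.P141
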