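import Mathlib

namespace Vale.Agent.Lib.P141

/-- Integers with `n` base-`q` digits taken from the finite set `D` of integers. -/
def digitSet (q : ℤ) (D : Finset ℤ) : ℕ → Finset ℤ
  | 0 => {0}
  | n + 1 => Finset.image₂ (fun d y => d + q * y) D (digitSet q D n)

theorem card_digitSet_le (q : ℤ) (D : Finset ℤ) (n : ℕ) :
    (digitSet q D n).card ≤ D.card ^ n := by
  induction n with
  | zero => simp [digitSet]
  | succ n ih =>
    calc (digitSet q D (n + 1)).card ≤ D.card * (digitSet q D n).card :=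
          Finset.card_image₂_le _ _ _
      _ ≤ D.card * D.card ^ n := Nat.mul_le_mul_left _ ih
      _ = D.card ^ (n + 1) := by ring

theorem abs_le_of_mem_digitSet (q : ℤ) (hq : 2 ≤ q) (D : Finset ℤ) (M : ℤ)
    (hM : ∀ d ∈ D, |d| ≤ M) (n : ℕ) :
    ∀ y ∈ digitSet q D n, |y| ≤ M * (q ^ n - 1) := by
  induction n with
  | zero =>
    intro y hy
    simp only [digitSet, Finset.mem_singleton] at hy
    simp [hy]
  | succ n ih =>
    intro y hy
    simp only [digitSet, Finset.mem_image₂] at hy
    obtain ⟨d, hd, y', hy', rfl⟩ := hy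
    have h1 := hM d hd
    have h2 := ih y' hy'
    have hM0 : 0 ≤ M := le_trans (abs_nonneg d) h1
    have hq0 : (0 : ℤ) ≤ q := by omega
    have h3 : |d + q * y'| ≤ |d| + q * |y'| := by
      calc |d + q * y'| ≤ |d| + |q * y'| := abs_add_le _ _
        _ = |d| + q * |y'| := by rw [abs_mul, abs_of_nonneg hq0]
    have h4 : q * |y'| ≤ q * (M * (q ^ n - 1)) := mul_le_mul_of_nonneg_left h2 hq0
    have h5 : M * (2 - q) ≤ 0 := mul_nonpos_of_nonneg_of_nonpos hM0 (by omega)
    have h6 : M + q * (M * (q ^ n - 1)) = M * (q ^ (n + 1) - 1) + M * (2 - q) := by ring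
    linarith

theorem card_digitSet_eq (q : ℤ) (hq : q ≠ 0) (E : Finset ℤ)
    (hE : ∀ e ∈ E, ∀ e' ∈ E, e % q = e' % q → e = e') (n : ℕ) :
    (digitSet q E n).card = E.card ^ n := by
  induction n with
  | zero => simp [digitSet]
  | succ n ih =>
    have : (digitSet q E (n + 1)).card = E.card * (digitSet q E n).card := by
      rw [digitSet, Finset.card_image₂_iff]
      rintro ⟨e, y⟩ hey ⟨e', y'⟩ hey' h
      simp only [Set.mem_prod, Finset.mem_coe] at hey hey'
      simp only at h
      have hmod : e % q = e' % q := by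
        have := congrArg (· % q) h
        simpa [Int.add_mul_emod_self_left] using this
      have he : e = e' := hE e hey.1 e' hey'.1 hmod
      subst he
      have hy : q * y = q * y' := by linarith
      have hy' : y = y' := mul_left_cancel₀ hq hy
      rw [hy']
    rw [this, ih]; ring

theorem exists_ap_of_mem_digitSet (q : ℤ) (P : Finset (ℤ × ℤ)) (n : ℕ) :
    ∀ x ∈ digitSet q (P.image fun u => u.1) n, ∃ t : ℤ,
      x - t ∈ digitSet q (P.image fun u => u.1 - u.2) n ∧
      x - 2 * t ∈ digitSet q (P.image fun u => u.1 - 2 * u.2) n ∧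
      x - 3 * t ∈ digitSet q (P.image fun u => u.1 - 3 * u.2) n := by
  induction n with
  | zero =>
    intro x hx
    simp only [digitSet, Finset.mem_singleton] at hx
    subst hx
    exact ⟨0, by simp [digitSet]⟩
  | succ n ih =>
    intro x hx
    simp only [digitSet, Finset.mem_image₂, Finset.mem_image] at hx
    obtain ⟨e, ⟨u, hu, rfl⟩, x', hx', rfl⟩ := hx
    obtain ⟨t', h1, h2, h3⟩ := ih x' hx'
    refine ⟨u.2 + q * t', ?_, ?_, ?_⟩
    · simp only [digitSet, Finset.mem_image₂, Finset.mem_image]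
      exact ⟨u.1 - u.2, ⟨u, hu, rfl⟩, x' - t', h1, by ring⟩
    · simp only [digitSet, Finset.mem_image₂, Finset.mem_image]
      exact ⟨u.1 - 2 * u.2, ⟨u, hu, rfl⟩, x' - 2 * t', h2, by ring⟩
    · simp only [digitSet, Finset.mem_image₂, Finset.mem_image]
      exact ⟨u.1 - 3 * u.2, ⟨u, hu, rfl⟩, x' - 3 * t', h3, by ring⟩

end Vale.Agent.Lib.P141
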