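import Mathlib
import Vale.Agent.Lib.P141.Defs
import Vale.Agent.Lib.P141.Digits
import Vale.Agent.Lib.P141.Comb
import Vale.Agent.Lib.P141.Analytic

namespace Vale.Agent.Lib.P141

open MeasureTheory Filter Topology
open scoped ENNReal NNReal

/-- Real-number consequence of a bound for the trilinear Hilbert transform, tested on combs. -/
theorem real_ineq_of_bounded {p1 p2 p3 r : ℝ≥0∞} (hr0 : r ≠ 0) (hrtop : r ≠ ∞) {C : ℝ≥0}
    (hC : ∀ f1 f2 f3 : SchwartzMap ℝ ℂ,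
      eLpNorm (triHilbert f1 f2 f3) r volume ≤
        C * eLpNorm f1 p1 volume * eLpNorm f2 p2 volume * eLpNorm f3 p3 volume)
    {A1 A2 A3 X : Finset ℤ} {B : ℝ} (hB0 : 0 ≤ B)
    (hB1 : ∀ y ∈ A1, |(y : ℝ)| ≤ B) (hB2 : ∀ y ∈ A2, |(y : ℝ)| ≤ B)
    (hX : ∀ x' ∈ X, ∃ t' : ℤ, x' - t' ∈ A1 ∧ x' - 2 * t' ∈ A2 ∧ x' - 3 * t' ∈ A3) :
    (1 / 8) / (4 * B + 3) * ((X.card : ℝ) * (1 / 8)) ^ (1 / r.toReal) ≤
      C * (A1.card : ℝ) ^ (1 / p1.toReal) * (A2.card : ℝ) ^ (1 / p2.toReal) *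
        (A3.card : ℝ) ^ (1 / p3.toReal) := by
  have hpos : 0 < (2 * B + 2) - 2 * B - 1 := by norm_num
  have hlow := eLpNorm_triHilbert_lower (L := 2 * B + 2) hB0 hB1 hB2 hpos X hX r hr0 hrtop
  have hup := hC (combS A1 (2 * (2 * B + 2))) (combS A2 (2 * B + 2)) (combS A3 0)
  have h1 := eLpNorm_combS_le A1 (2 * (2 * B + 2)) p1
  have h2 := eLpNorm_combS_le A2 (2 * B + 2) p2
  have h3 := eLpNorm_combS_le A3 0 p3
  have hchain : ENNReal.ofReal ((1 / 8) / (2 * B + 2 + 2 * B + 1)) *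
        ((X.card : ℝ≥0∞) * ENNReal.ofReal (1 / 8)) ^ (1 / r.toReal) ≤
      C * (A1.card : ℝ≥0∞) ^ (1 / p1.toReal) * (A2.card : ℝ≥0∞) ^ (1 / p2.toReal) *
        (A3.card : ℝ≥0∞) ^ (1 / p3.toReal) := by
    refine le_trans hlow (le_trans hup ?_)
    gcongr
  have hfin : (C : ℝ≥0∞) * (A1.card : ℝ≥0∞) ^ (1 / p1.toReal) *
        (A2.card : ℝ≥0∞) ^ (1 / p2.toReal) * (A3.card : ℝ≥0∞) ^ (1 / p3.toReal) ≠ ∞ := by
    apply ENNReal.mul_ne_top (ENNReal.mul_ne_top (ENNReal.mul_ne_top ENNReal.coe_ne_top ?_) ?_) ?_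
    all_goals exact ENNReal.rpow_ne_top_of_nonneg (by positivity) (ENNReal.natCast_ne_top _)
  have hreal := ENNReal.toReal_mono hfin hchain
  have hc0 : (0 : ℝ) ≤ (1 / 8) / (2 * B + 2 + 2 * B + 1) := by
    apply div_nonneg (by norm_num); linarith
  simp only [ENNReal.toReal_mul, ← ENNReal.toReal_rpow, ENNReal.toReal_ofReal hc0,
    ENNReal.toReal_natCast, ENNReal.coe_toReal,
    ENNReal.toReal_ofReal (by norm_num : (0 : ℝ) ≤ 1 / 8)] at hreal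
  have e : (2 * B + 2 + 2 * B + 1) = 4 * B + 3 := by ring
  rw [e] at hreal
  exact hreal

theorem pow_rpow_comm (x : ℝ) (hx : 0 ≤ x) (n : ℕ) (s : ℝ) : (x ^ n) ^ s = (x ^ s) ^ n := by
  rw [← Real.rpow_natCast, ← Real.rpow_mul hx, mul_comm, Real.rpow_mul hx, Real.rpow_natCast]

/-- Pure real analysis: the inequalities obtained from the digit construction cannot hold for
all `n` when the gap condition holds. -/
theorem no_uniform_constant (w M u v e C : ℝ) (hw : 0 < w) (hwM : ∀ n : ℕ, 1 ≤ M * w ^ n)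
    (hv : 0 < v) (he : 0 < e) (hgap : w * v < u)
    (key : ∀ n : ℕ, (1 / 8) / (4 * (M * w ^ n) + 3) * (u ^ n * e) ≤ C * v ^ n) : False := by
  have hwv : 0 < w * v := mul_pos hw hv
  have hρ : 1 < u / (w * v) := by rw [one_lt_div hwv]; exact hgap
  obtain ⟨n, hn⟩ := pow_unbounded_of_one_lt (7 * M * C / ((1 / 8) * e)) hρ
  have hk := key n
  have hT := hwM n
  set T := M * w ^ n with hTdef
  have hwvn : 0 < (w * v) ^ n := pow_pos hwv n
  have hu : u ^ n = (u / (w * v)) ^ n * (w * v) ^ n := by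
    rw [← mul_pow, div_mul_cancel₀ _ hwv.ne']
  have h7 : (1 / 8) / (7 * T) ≤ (1 / 8) / (4 * T + 3) := by
    apply div_le_div_of_nonneg_left (by norm_num) (by linarith) (by linarith)
  have hun : 0 ≤ u ^ n * e := by
    rw [hu]; positivity
  have h1 : (1 / 8) / (7 * T) * (u ^ n * e) ≤ C * v ^ n :=
    le_trans (mul_le_mul_of_nonneg_right h7 hun) hk
  have hT0 : 0 < 7 * T := by linarith
  have h2 : (1 / 8) * (u ^ n * e) ≤ 7 * T * (C * v ^ n) := by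
    have := mul_le_mul_of_nonneg_left h1 hT0.le
    have e2 : 7 * T * ((1 / 8) / (7 * T) * (u ^ n * e)) = (1 / 8) * (u ^ n * e) := by
      field_simp
    rw [e2] at this
    exact this
  have h3 : 7 * T * (C * v ^ n) = 7 * M * C * (w * v) ^ n := by
    rw [hTdef, mul_pow]; ring
  rw [h3, hu] at h2
  have h4 : (1 / 8) * e * (u / (w * v)) ^ n ≤ 7 * M * C := by
    have h5 : ((1 / 8) * e * (u / (w * v)) ^ n) * (w * v) ^ n ≤ (7 * M * C) * (w * v) ^ n := by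
      calc ((1 / 8) * e * (u / (w * v)) ^ n) * (w * v) ^ n
          = (1 / 8) * ((u / (w * v)) ^ n * (w * v) ^ n * e) := by ring
        _ ≤ 7 * M * C * (w * v) ^ n := h2
    exact le_of_mul_le_mul_right h5 hwvn
  have hke : 0 < (1 / 8) * e := by positivity
  have h6 : 7 * M * C / ((1 / 8) * e) < (u / (w * v)) ^ n := hn
  rw [div_lt_iff₀ hke] at h6
  linarith

/-- The inequality obtained from the `n`-digit construction. -/
theorem key_ineq (q : ℕ) (hq : 2 ≤ q) (P : Finset (ℤ × ℤ))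
    (hP : (P.image fun u : ℤ × ℤ => u.1 % (q : ℤ)).card = P.card)
    {p1 p2 p3 r : ℝ≥0∞} (hr0 : r ≠ 0) (hrtop : r ≠ ∞) {C : ℝ≥0}
    (hC : ∀ f1 f2 f3 : SchwartzMap ℝ ℂ,
      eLpNorm (triHilbert f1 f2 f3) r volume ≤
        C * eLpNorm f1 p1 volume * eLpNorm f2 p2 volume * eLpNorm f3 p3 volume)
    (M : ℤ) (hM1 : 1 ≤ M)
    (hMD1 : ∀ d ∈ (P.image fun u : ℤ × ℤ => u.1 - u.2), |d| ≤ M)
    (hMD2 : ∀ d ∈ (P.image fun u : ℤ × ℤ => u.1 - 2 * u.2), |d| ≤ M) (n : ℕ) :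
    (1 / 8) / (4 * ((M : ℝ) * (q : ℝ) ^ n) + 3) *
      (((P.card : ℝ) ^ (1 / r.toReal)) ^ n * (1 / 8 : ℝ) ^ (1 / r.toReal)) ≤
      C * ((((P.image fun u : ℤ × ℤ => u.1 - u.2).card : ℝ) ^ (1 / p1.toReal)) *
        (((P.image fun u : ℤ × ℤ => u.1 - 2 * u.2).card : ℝ) ^ (1 / p2.toReal)) *
        (((P.image fun u : ℤ × ℤ => u.1 - 3 * u.2).card : ℝ) ^ (1 / p3.toReal))) ^ n := by
  have hqZ : (2 : ℤ) ≤ (q : ℤ) := by exact_mod_cast hq
  have hinj : Set.InjOn (fun u : ℤ × ℤ => u.1 % (q : ℤ)) (P : Set (ℤ × ℤ)) :=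
    Finset.card_image_iff.mp hP
  have hEinj : ∀ e ∈ (P.image fun u : ℤ × ℤ => u.1), ∀ e' ∈ (P.image fun u : ℤ × ℤ => u.1),
      e % (q : ℤ) = e' % (q : ℤ) → e = e' := by
    intro e he e' he' hmod
    simp only [Finset.mem_image] at he he'
    obtain ⟨u, hu, rfl⟩ := he
    obtain ⟨v, hv, rfl⟩ := he'
    have huv := hinj hu hv hmod
    rw [huv]
  have hEcard : (P.image fun u : ℤ × ℤ => u.1).card = P.card := by
    apply Finset.card_image_of_injOn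
    intro u hu v hv huv
    apply hinj hu hv
    simp only at huv ⊢
    rw [huv]
  have ha1 : 0 ≤ 1 / p1.toReal := by positivity
  have ha2 : 0 ≤ 1 / p2.toReal := by positivity
  have ha3 : 0 ≤ 1 / p3.toReal := by positivity
  have hM1R : (1 : ℝ) ≤ (M : ℝ) := by exact_mod_cast hM1
  have hq1R : (1 : ℝ) ≤ (q : ℝ) := by
    have : (1 : ℕ) ≤ q := by omega
    exact_mod_cast this
  have hqn : (1 : ℝ) ≤ (q : ℝ) ^ n := one_le_pow₀ hq1R
  have hB0 : (0 : ℝ) ≤ (M : ℝ) * (q : ℝ) ^ n := by nlinarith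
  have hb : ∀ D : Finset ℤ, (∀ d ∈ D, |d| ≤ M) →
      ∀ y ∈ digitSet (q : ℤ) D n, |(y : ℝ)| ≤ (M : ℝ) * (q : ℝ) ^ n := by
    intro D hD y hy
    have h := abs_le_of_mem_digitSet (q : ℤ) hqZ D M hD n y hy
    have h' : |y| ≤ M * (q : ℤ) ^ n := by
      have : M * ((q : ℤ) ^ n - 1) ≤ M * (q : ℤ) ^ n := by nlinarith
      omega
    have h'' : ((|y| : ℤ) : ℝ) ≤ ((M * (q : ℤ) ^ n : ℤ) : ℝ) := by exact_mod_cast h'
    push_cast at h''
    exact h''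
  have hX := exists_ap_of_mem_digitSet (q : ℤ) P n
  have hineq := real_ineq_of_bounded hr0 hrtop hC hB0 (hb _ hMD1) (hb _ hMD2) hX
  have hXcard : (digitSet (q : ℤ) (P.image fun u : ℤ × ℤ => u.1) n).card = P.card ^ n := by
    rw [card_digitSet_eq (q : ℤ) (by omega) _ hEinj n, hEcard]
  rw [hXcard] at hineq
  push_cast at hineq
  have hPc : (0 : ℝ) ≤ (P.card : ℝ) := Nat.cast_nonneg _
  rw [Real.mul_rpow (pow_nonneg hPc n) (by norm_num), pow_rpow_comm _ hPc] at hineq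
  refine le_trans hineq ?_
  have hcard : ∀ (D : Finset ℤ) (a : ℝ), 0 ≤ a →
      ((digitSet (q : ℤ) D n).card : ℝ) ^ a ≤ ((D.card : ℝ) ^ a) ^ n := by
    intro D a ha
    rw [← pow_rpow_comm _ (Nat.cast_nonneg _)]
    apply Real.rpow_le_rpow (Nat.cast_nonneg _) _ ha
    exact_mod_cast card_digitSet_le (q : ℤ) D n
  rw [mul_pow, mul_pow]
  have hC0 : (0 : ℝ) ≤ (C : ℝ) := C.coe_nonneg
  have g1 := hcard (P.image fun u : ℤ × ℤ => u.1 - u.2) _ ha1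
  have g2 := hcard (P.image fun u : ℤ × ℤ => u.1 - 2 * u.2) _ ha2
  have g3 := hcard (P.image fun u : ℤ × ℤ => u.1 - 3 * u.2) _ ha3
  have n1 : (0 : ℝ) ≤ ((digitSet (q : ℤ) (P.image fun u : ℤ × ℤ => u.1 - u.2) n).card : ℝ) ^
      (1 / p1.toReal) := Real.rpow_nonneg (Nat.cast_nonneg _) _
  have n2 : (0 : ℝ) ≤ ((digitSet (q : ℤ) (P.image fun u : ℤ × ℤ => u.1 - 2 * u.2) n).card : ℝ) ^
      (1 / p2.toReal) := Real.rpow_nonneg (Nat.cast_nonneg _) _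
  have n3 : (0 : ℝ) ≤ ((digitSet (q : ℤ) (P.image fun u : ℤ × ℤ => u.1 - 3 * u.2) n).card : ℝ) ^
      (1 / p3.toReal) := Real.rpow_nonneg (Nat.cast_nonneg _) _
  have m1 := mul_le_mul_of_nonneg_left g1 hC0
  have m2 := mul_le_mul m1 g2 n2 (le_trans (mul_nonneg hC0 n1) m1)
  have m3 := mul_le_mul m2 g3 n3 (le_trans (mul_nonneg (mul_nonneg hC0 n1) n2) m2)
  refine le_trans m3 (le_of_eq ?_)
  ring

/-- General criterion: a finite configuration of 4-term progressions `(e, e-τ, e-2τ, e-3τ)`,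
given by pairs `(e, τ)` with pairwise distinct `e mod q`, forces unboundedness at every tuple of
exponents for which `q * |D1|^(1/p1) * |D2|^(1/p2) * |D3|^(1/p3) < |P|^(1/r)`. -/
theorem unbounded_of_config (q : ℕ) (hq : 2 ≤ q) (P : Finset (ℤ × ℤ))
    (hP : (P.image fun u : ℤ × ℤ => u.1 % (q : ℤ)).card = P.card)
    (p1 p2 p3 r : ℝ≥0∞) (hr0 : r ≠ 0) (hrtop : r ≠ ∞)
    (hgap : (q : ℝ) * ((P.image fun u : ℤ × ℤ => u.1 - u.2).card : ℝ) ^ (1 / p1.toReal)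
        * ((P.image fun u : ℤ × ℤ => u.1 - 2 * u.2).card : ℝ) ^ (1 / p2.toReal)
        * ((P.image fun u : ℤ × ℤ => u.1 - 3 * u.2).card : ℝ) ^ (1 / p3.toReal)
        < (P.card : ℝ) ^ (1 / r.toReal)) :
    ¬ BoundedAt p1 p2 p3 r := by
  rintro ⟨C, hC⟩
  have hsum0 : 0 ≤ ∑ d ∈ (P.image fun u : ℤ × ℤ => u.1 - u.2) ∪
      (P.image fun u : ℤ × ℤ => u.1 - 2 * u.2), |d| :=
    Finset.sum_nonneg (fun _ _ => abs_nonneg _)
  have hMD1 : ∀ d ∈ (P.image fun u : ℤ × ℤ => u.1 - u.2), |d| ≤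
      (∑ d ∈ (P.image fun u : ℤ × ℤ => u.1 - u.2) ∪
        (P.image fun u : ℤ × ℤ => u.1 - 2 * u.2), |d|) + 1 := by
    intro d hd
    have h : |d| ≤ ∑ d ∈ (P.image fun u : ℤ × ℤ => u.1 - u.2) ∪
        (P.image fun u : ℤ × ℤ => u.1 - 2 * u.2), |d| :=
      Finset.single_le_sum (f := fun d : ℤ => |d|) (fun _ _ => abs_nonneg _)
        (Finset.mem_union_left _ hd)
    omega
  have hMD2 : ∀ d ∈ (P.image fun u : ℤ × ℤ => u.1 - 2 * u.2), |d| ≤
      (∑ d ∈ (P.image fun u : ℤ × ℤ => u.1 - u.2) ∪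
        (P.image fun u : ℤ × ℤ => u.1 - 2 * u.2), |d|) + 1 := by
    intro d hd
    have h : |d| ≤ ∑ d ∈ (P.image fun u : ℤ × ℤ => u.1 - u.2) ∪
        (P.image fun u : ℤ × ℤ => u.1 - 2 * u.2), |d| :=
      Finset.single_le_sum (f := fun d : ℤ => |d|) (fun _ _ => abs_nonneg _)
        (Finset.mem_union_right _ hd)
    omega
  have key := key_ineq q hq P hP hr0 hrtop hC _ (by omega) hMD1 hMD2
  have hrpos : 0 < r.toReal := ENNReal.toReal_pos hr0 hrtop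
  have hspos : 0 < 1 / r.toReal := by positivity
  have hq1R : (1 : ℝ) ≤ (q : ℝ) := by
    have : (1 : ℕ) ≤ q := by omega
    exact_mod_cast this
  have hM1R : (1 : ℝ) ≤ (((∑ d ∈ (P.image fun u : ℤ × ℤ => u.1 - u.2) ∪
        (P.image fun u : ℤ × ℤ => u.1 - 2 * u.2), |d|) + 1 : ℤ) : ℝ) := by
    have : (1 : ℤ) ≤ (∑ d ∈ (P.image fun u : ℤ × ℤ => u.1 - u.2) ∪
        (P.image fun u : ℤ × ℤ => u.1 - 2 * u.2), |d|) + 1 := by omega
    exact_mod_cast this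
  have hwM : ∀ n : ℕ, 1 ≤ (((∑ d ∈ (P.image fun u : ℤ × ℤ => u.1 - u.2) ∪
        (P.image fun u : ℤ × ℤ => u.1 - 2 * u.2), |d|) + 1 : ℤ) : ℝ) * (q : ℝ) ^ n := by
    intro n
    have : (1 : ℝ) ≤ (q : ℝ) ^ n := one_le_pow₀ hq1R
    nlinarith
  have hPne : P.Nonempty := by
    by_contra hne
    rw [Finset.not_nonempty_iff_eq_empty] at hne
    have hc0 : P.card = 0 := Finset.card_eq_zero.mpr hne
    have hc : (P.card : ℝ) = 0 := by exact_mod_cast hc0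
    rw [hc, Real.zero_rpow hspos.ne'] at hgap
    have hnn : (0 : ℝ) ≤ (q : ℝ) * ((P.image fun u : ℤ × ℤ => u.1 - u.2).card : ℝ) ^
        (1 / p1.toReal) * ((P.image fun u : ℤ × ℤ => u.1 - 2 * u.2).card : ℝ) ^ (1 / p2.toReal) *
        ((P.image fun u : ℤ × ℤ => u.1 - 3 * u.2).card : ℝ) ^ (1 / p3.toReal) := by positivity
    linarith
  have hd1 : (0 : ℝ) < ((P.image fun u : ℤ × ℤ => u.1 - u.2).card : ℝ) := by
    have : 0 < (P.image fun u : ℤ × ℤ => u.1 - u.2).card := Finset.card_pos.mpr (hPne.image _)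
    exact_mod_cast this
  have hd2 : (0 : ℝ) < ((P.image fun u : ℤ × ℤ => u.1 - 2 * u.2).card : ℝ) := by
    have : 0 < (P.image fun u : ℤ × ℤ => u.1 - 2 * u.2).card :=
      Finset.card_pos.mpr (hPne.image _)
    exact_mod_cast this
  have hd3 : (0 : ℝ) < ((P.image fun u : ℤ × ℤ => u.1 - 3 * u.2).card : ℝ) := by
    have : 0 < (P.image fun u : ℤ × ℤ => u.1 - 3 * u.2).card :=
      Finset.card_pos.mpr (hPne.image _)
    exact_mod_cast this
  have hv : 0 < (((P.image fun u : ℤ × ℤ => u.1 - u.2).card : ℝ) ^ (1 / p1.toReal)) *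
        (((P.image fun u : ℤ × ℤ => u.1 - 2 * u.2).card : ℝ) ^ (1 / p2.toReal)) *
        (((P.image fun u : ℤ × ℤ => u.1 - 3 * u.2).card : ℝ) ^ (1 / p3.toReal)) := by positivity
  have he : (0 : ℝ) < (1 / 8 : ℝ) ^ (1 / r.toReal) := by positivity
  have hgap' : (q : ℝ) * ((((P.image fun u : ℤ × ℤ => u.1 - u.2).card : ℝ) ^ (1 / p1.toReal)) *
        (((P.image fun u : ℤ × ℤ => u.1 - 2 * u.2).card : ℝ) ^ (1 / p2.toReal)) *
        (((P.image fun u : ℤ × ℤ => u.1 - 3 * u.2).card : ℝ) ^ (1 / p3.toReal))) <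
        (P.card : ℝ) ^ (1 / r.toReal) := by
    refine lt_of_eq_of_lt ?_ hgap
    ring
  exact no_uniform_constant (q : ℝ) _ _ _ _ (C : ℝ) (by linarith) hwM hv he hgap' key

end Vale.Agent.Lib.P141
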