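import Mathlib
import Vale.Agent.Lib.P141.Defs
import Vale.Agent.Lib.P141.Main

namespace Vale.Agent.Lib.P141

open scoped ENNReal NNReal

theorem holder_real {p1 p2 p3 r : ℝ≥0∞} (h : IsHolderTuple p1 p2 p3 r) :
    r ≠ 0 ∧ r ≠ ∞ ∧ 1 / r.toReal = 1 / p1.toReal + 1 / p2.toReal + 1 / p3.toReal := by
  obtain ⟨h1, h2, h3, hr0, hrt, he⟩ := h
  refine ⟨hr0.ne', hrt.ne, ?_⟩
  have f1 : 1 / p1 ≠ ∞ := by
    rw [one_div]
    exact ne_top_of_le_ne_top ENNReal.one_ne_top (ENNReal.inv_le_one.mpr h1.le)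
  have f2 : 1 / p2 ≠ ∞ := by
    rw [one_div]
    exact ne_top_of_le_ne_top ENNReal.one_ne_top (ENNReal.inv_le_one.mpr h2.le)
  have f3 : 1 / p3 ≠ ∞ := by
    rw [one_div]
    exact ne_top_of_le_ne_top ENNReal.one_ne_top (ENNReal.inv_le_one.mpr h3.le)
  have e := congrArg ENNReal.toReal he
  rw [ENNReal.toReal_add (ENNReal.add_ne_top.mpr ⟨f1, f2⟩) f3, ENNReal.toReal_add f1 f2] at e
  simp only [ENNReal.toReal_div, ENNReal.toReal_one] at e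
  exact e

theorem gap_of_quot {Q d1 d2 d3 a1 a2 a3 s : ℝ} (hQ : 0 < Q) (hd1 : 0 < d1) (hd2 : 0 < d2)
    (hd3 : 0 < d3) (hs : s = a1 + a2 + a3)
    (h : Q < (Q / d1) ^ a1 * (Q / d2) ^ a2 * (Q / d3) ^ a3) :
    Q * d1 ^ a1 * d2 ^ a2 * d3 ^ a3 < Q ^ s := by
  rw [hs, Real.rpow_add hQ, Real.rpow_add hQ]
  rw [Real.div_rpow hQ.le hd1.le, Real.div_rpow hQ.le hd2.le, Real.div_rpow hQ.le hd3.le] at h
  have q1 : 0 < d1 ^ a1 := Real.rpow_pos_of_pos hd1 _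
  have q2 : 0 < d2 ^ a2 := Real.rpow_pos_of_pos hd2 _
  have q3 : 0 < d3 ^ a3 := Real.rpow_pos_of_pos hd3 _
  have e : Q ^ a1 / d1 ^ a1 * (Q ^ a2 / d2 ^ a2) * (Q ^ a3 / d3 ^ a3) =
      (Q ^ a1 * Q ^ a2 * Q ^ a3) / (d1 ^ a1 * d2 ^ a2 * d3 ^ a3) := by
    field_simp
  rw [e, lt_div_iff₀ (by positivity)] at h
  calc Q * d1 ^ a1 * d2 ^ a2 * d3 ^ a3 = Q * (d1 ^ a1 * d2 ^ a2 * d3 ^ a3) := by ring
    _ < Q ^ a1 * Q ^ a2 * Q ^ a3 := h

/-- Unboundedness from a configuration with known cardinalities. -/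
theorem unbounded_cfg (q : ℕ) (hq : 2 ≤ q) (P : Finset (ℤ × ℤ)) (d1 d2 d3 : ℕ)
    (hP : (P.image fun u : ℤ × ℤ => u.1 % (q : ℤ)).card = P.card) (hPq : P.card = q)
    (h1 : (P.image fun u : ℤ × ℤ => u.1 - u.2).card = d1)
    (h2 : (P.image fun u : ℤ × ℤ => u.1 - 2 * u.2).card = d2)
    (h3 : (P.image fun u : ℤ × ℤ => u.1 - 3 * u.2).card = d3)
    (hd1 : 0 < d1) (hd2 : 0 < d2) (hd3 : 0 < d3)
    {p1 p2 p3 r : ℝ≥0∞} (hH : IsHolderTuple p1 p2 p3 r)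
    (h : (q : ℝ) < ((q : ℝ) / d1) ^ (1 / p1.toReal) * ((q : ℝ) / d2) ^ (1 / p2.toReal) *
      ((q : ℝ) / d3) ^ (1 / p3.toReal)) :
    ¬ BoundedAt p1 p2 p3 r := by
  obtain ⟨hr0, hrt, hs⟩ := holder_real hH
  apply unbounded_of_config q hq P hP p1 p2 p3 r hr0 hrt
  rw [h1, h2, h3, hPq]
  have hQ : (0 : ℝ) < (q : ℝ) := by
    have : 0 < q := by omega
    exact_mod_cast this
  exact gap_of_quot hQ (by exact_mod_cast hd1) (by exact_mod_cast hd2) (by exact_mod_cast hd3) hs h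

/-- Configuration A: `q = 17`, 17 progressions, digit sets of sizes 5, 5, 5. -/
def cfgA : Finset (ℤ × ℤ) :=
  {(-2, -2), (-3, -3), (-4, -4), (2, 0), (1, -1), (0, -2), (-1, -3), (6, 2), (5, 1), (4, 0),
    (3, -1), (9, 3), (8, 2), (7, 1), (12, 4), (11, 3), (10, 2)}

/-- Configuration B: `q = 16`, 16 progressions, digit sets of sizes 4, 4, 7. -/
def cfgB : Finset (ℤ × ℤ) :=
  {(0, 0), (-1, -1), (-2, -2), (-3, -3), (4, 2), (3, 1), (2, 0), (1, -1), (8, 4), (7, 3),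
    (6, 2), (5, 1), (12, 6), (11, 5), (10, 4), (9, 3)}

/-- Configuration C: `q = 12`, 12 progressions, digit sets of sizes 4, 6, 3. -/
def cfgC : Finset (ℤ × ℤ) :=
  {(0, 0), (-1, -1), (-2, -2), (3, 1), (2, 0), (1, -1), (6, 2), (5, 1), (4, 0), (9, 3),
    (8, 2), (7, 1)}

/-- Configuration D: `q = 16`, 16 progressions, digit sets of sizes 7, 4, 4. -/
def cfgD : Finset (ℤ × ℤ) :=
  {(0, 0), (-4, -2), (-8, -4), (-12, -6), (3, 1), (-1, -1), (-5, -3), (-9, -5), (6, 2),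
    (2, 0), (-2, -2), (-6, -4), (9, 3), (5, 1), (1, -1), (-3, -3)}

theorem unbounded_A {p1 p2 p3 r : ℝ≥0∞} (hH : IsHolderTuple p1 p2 p3 r)
    (h : (17 : ℝ) < (17 / 5) ^ (1 / r.toReal)) : ¬ BoundedAt p1 p2 p3 r := by
  apply unbounded_cfg 17 (by norm_num) cfgA 5 5 5 (by decide) (by decide) (by decide)
    (by decide) (by decide) (by norm_num) (by norm_num) (by norm_num) hH
  obtain ⟨_, _, hs⟩ := holder_real hH
  rw [hs] at h
  have h175 : (0 : ℝ) < 17 / 5 := by norm_num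
  rw [Real.rpow_add h175, Real.rpow_add h175] at h
  exact_mod_cast h

theorem unbounded_B {p1 p2 p3 r : ℝ≥0∞} (hH : IsHolderTuple p1 p2 p3 r)
    (h : (16 : ℝ) < 4 ^ (1 / p1.toReal) * 4 ^ (1 / p2.toReal) * (16 / 7) ^ (1 / p3.toReal)) :
    ¬ BoundedAt p1 p2 p3 r := by
  apply unbounded_cfg 16 (by norm_num) cfgB 4 4 7 (by decide) (by decide) (by decide)
    (by decide) (by decide) (by norm_num) (by norm_num) (by norm_num) hH
  have e : ((16 : ℕ) : ℝ) / ((4 : ℕ) : ℝ) = 4 := by norm_num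
  rw [e]
  exact_mod_cast h

theorem unbounded_C {p1 p2 p3 r : ℝ≥0∞} (hH : IsHolderTuple p1 p2 p3 r)
    (h : (12 : ℝ) < 3 ^ (1 / p1.toReal) * 2 ^ (1 / p2.toReal) * 4 ^ (1 / p3.toReal)) :
    ¬ BoundedAt p1 p2 p3 r := by
  apply unbounded_cfg 12 (by norm_num) cfgC 4 6 3 (by decide) (by decide) (by decide)
    (by decide) (by decide) (by norm_num) (by norm_num) (by norm_num) hH
  have e1 : ((12 : ℕ) : ℝ) / ((4 : ℕ) : ℝ) = 3 := by norm_num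
  have e2 : ((12 : ℕ) : ℝ) / ((6 : ℕ) : ℝ) = 2 := by norm_num
  have e3 : ((12 : ℕ) : ℝ) / ((3 : ℕ) : ℝ) = 4 := by norm_num
  rw [e1, e2, e3]
  exact_mod_cast h

theorem unbounded_D {p1 p2 p3 r : ℝ≥0∞} (hH : IsHolderTuple p1 p2 p3 r)
    (h : (16 : ℝ) < (16 / 7) ^ (1 / p1.toReal) * 4 ^ (1 / p2.toReal) * 4 ^ (1 / p3.toReal)) :
    ¬ BoundedAt p1 p2 p3 r := by
  apply unbounded_cfg 16 (by norm_num) cfgD 7 4 4 (by decide) (by decide) (by decide)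
    (by decide) (by decide) (by norm_num) (by norm_num) (by norm_num) hH
  have e : ((16 : ℕ) : ℝ) / ((4 : ℕ) : ℝ) = 4 := by norm_num
  rw [e]
  exact_mod_cast h

end Vale.Agent.Lib.P141
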