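import Mathlib
import Vale.Agent.Lib.P141.Defs
import Vale.Agent.Lib.P141.Explicit

namespace Vale.Agent.Lib.P141

open scoped ENNReal NNReal

theorem toReal_ofReal_inv {a : ℝ} (ha : 0 < a) : 1 / (ENNReal.ofReal (1 / a)).toReal = a := by
  rw [ENNReal.toReal_ofReal (by positivity)]
  field_simp

/-- Building a Holder tuple from reciprocal exponents `a1, a2, a3 ∈ (0, 1)` with sum `1 / r`. -/
theorem isHolderTuple_of_real {r a1 a2 a3 : ℝ} (hr : 0 < r)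
    (h1 : 0 < a1) (h1' : a1 < 1) (h2 : 0 < a2) (h2' : a2 < 1) (h3 : 0 < a3) (h3' : a3 < 1)
    (hsum : a1 + a2 + a3 = 1 / r) :
    IsHolderTuple (ENNReal.ofReal (1 / a1)) (ENNReal.ofReal (1 / a2)) (ENNReal.ofReal (1 / a3))
      (ENNReal.ofReal r) := by
  have g : ∀ a : ℝ, 0 < a → a < 1 → (1 : ℝ≥0∞) < ENNReal.ofReal (1 / a) := by
    intro a ha ha'
    rw [← ENNReal.ofReal_one, ENNReal.ofReal_lt_ofReal_iff (by positivity)]
    rw [lt_div_iff₀ ha]
    linarith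
  have inv : ∀ a : ℝ, 0 < a → 1 / ENNReal.ofReal (1 / a) = ENNReal.ofReal a := by
    intro a ha
    rw [one_div, one_div, ENNReal.ofReal_inv_of_pos ha, inv_inv]
  refine ⟨g a1 h1 h1', g a2 h2 h2', g a3 h3 h3', ENNReal.ofReal_pos.mpr hr,
    ENNReal.ofReal_lt_top, ?_⟩
  rw [inv a1 h1, inv a2 h2, inv a3 h3, ← ENNReal.ofReal_add h1.le h2.le,
    ← ENNReal.ofReal_add (by linarith) h3.le, hsum, one_div, one_div,
    ENNReal.ofReal_inv_of_pos hr]

theorem seventeen_lt : (17 : ℝ) < (17 / 5 : ℝ) ^ ((12 : ℝ) / 5) := by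
  have hx : (0 : ℝ) ≤ (17 / 5 : ℝ) ^ ((12 : ℝ) / 5) := by positivity
  have h5 : ((17 / 5 : ℝ) ^ ((12 : ℝ) / 5)) ^ (5 : ℕ) = (17 / 5 : ℝ) ^ (12 : ℕ) := by
    rw [← Real.rpow_natCast, ← Real.rpow_mul (by norm_num), ← Real.rpow_natCast]
    norm_num
  have hlt : (17 : ℝ) ^ (5 : ℕ) < ((17 / 5 : ℝ) ^ ((12 : ℝ) / 5)) ^ (5 : ℕ) := by
    rw [h5]; norm_num
  exact lt_of_pow_lt_pow_left₀ 5 hx hlt

theorem exists_unbounded_tuple (r : ℝ) (h1 : 1 / 3 < r) (h2 : r < 1 / 2) :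
    ∃ p1 p2 p3 : ℝ≥0∞, IsHolderTuple p1 p2 p3 (ENNReal.ofReal r) ∧
      ¬ BoundedAt p1 p2 p3 (ENNReal.ofReal r) := by
  have hr : 0 < r := by linarith
  have hs2 : 2 < 1 / r := by rw [lt_div_iff₀ hr]; linarith
  have hs3 : 1 / r < 3 := by rw [div_lt_iff₀ hr]; linarith
  have hrr : (ENNReal.ofReal r).toReal = r := ENNReal.toReal_ofReal hr.le
  by_cases hcase : (12 : ℝ) / 5 ≤ 1 / r
  · -- symmetric tuple
    have ha : 0 < 1 / r / 3 := by positivity
    have ha' : 1 / r / 3 < 1 := by linarith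
    have hH := isHolderTuple_of_real hr ha ha' ha ha' ha ha' (by ring)
    refine ⟨_, _, _, hH, ?_⟩
    apply unbounded_A hH
    rw [hrr]
    calc (17 : ℝ) < (17 / 5 : ℝ) ^ ((12 : ℝ) / 5) := seventeen_lt
      _ ≤ (17 / 5 : ℝ) ^ (1 / r) :=
        Real.rpow_le_rpow_of_exponent_le (by norm_num) hcase
  · -- tuple near the edge p1 = p2 = 1
    rw [not_le] at hcase
    set x : ℝ := 1 / r - 2 with hx
    have hx0 : 0 < x := by linarith
    have hx1 : x < 2 / 5 := by linarith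
    have ha : 0 < 1 - x / 2 := by linarith
    have ha' : 1 - x / 2 < 1 := by linarith
    have hc : 0 < 2 * x := by linarith
    have hc' : 2 * x < 1 := by linarith
    have hH := isHolderTuple_of_real hr ha ha' ha ha' hc hc' (by rw [hx]; ring)
    refine ⟨_, _, _, hH, ?_⟩
    apply unbounded_B hH
    rw [toReal_ofReal_inv ha, toReal_ofReal_inv hc]
    have e1 : (4 : ℝ) ^ (1 - x / 2) * (4 : ℝ) ^ (1 - x / 2) = 16 * ((4 : ℝ) ^ x)⁻¹ := by
      rw [← Real.rpow_add (by norm_num)]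
      have : (1 - x / 2) + (1 - x / 2) = 2 + (-x) := by ring
      rw [this, Real.rpow_add (by norm_num), Real.rpow_neg (by norm_num)]
      norm_num
    have e2 : (16 / 7 : ℝ) ^ (2 * x) = (4 : ℝ) ^ x * (64 / 49 : ℝ) ^ x := by
      rw [Real.rpow_mul (by norm_num), ← Real.mul_rpow (by norm_num) (by norm_num)]
      norm_num
    rw [e1, e2]
    have h4 : (0 : ℝ) < (4 : ℝ) ^ x := by positivity
    have h64 : (1 : ℝ) < (64 / 49 : ℝ) ^ x := Real.one_lt_rpow (by norm_num) hx0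
    have e3 : 16 * ((4 : ℝ) ^ x)⁻¹ * ((4 : ℝ) ^ x * (64 / 49 : ℝ) ^ x) =
        16 * (64 / 49 : ℝ) ^ x := by
      field_simp
    rw [e3]
    linarith

end Vale.Agent.Lib.P141
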