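import Mathlib
import Vale.Agent.Lib.P141.Digits

namespace Vale.Agent.Lib.P141

/-- Lists of length `n` with entries in the finite set `P`. -/
def seqs {α : Type} [DecidableEq α] (P : Finset α) : ℕ → Finset (List α)
  | 0 => {[]}
  | n + 1 => (P ×ˢ seqs P n).image (fun p => p.1 :: p.2)

theorem mem_seqs {α : Type} [DecidableEq α] (P : Finset α) (n : ℕ) (l : List α) :
    l ∈ seqs P n ↔ l.length = n ∧ ∀ a ∈ l, a ∈ P := by
  induction n generalizing l with
  | zero =>
    simp only [seqs, Finset.mem_singleton]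
    constructor
    · rintro rfl; simp
    · rintro ⟨h, _⟩; exact List.eq_nil_of_length_eq_zero h
  | succ n ih =>
    simp only [seqs, Finset.mem_image, Finset.mem_product, Prod.exists]
    constructor
    · rintro ⟨a, t, ⟨ha, ht⟩, rfl⟩
      obtain ⟨h1, h2⟩ := (ih t).mp ht
      refine ⟨by simp [h1], ?_⟩
      intro b hb
      rcases List.mem_cons.mp hb with rfl | hb
      · exact ha
      · exact h2 b hb
    · rintro ⟨hlen, hall⟩
      cases l with
      | nil => simp at hlen
      | cons a t =>
        refine ⟨a, t, ⟨hall a (by simp), (ih t).mpr ⟨by simpa using hlen, ?_⟩⟩, rfl⟩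
        intro b hb
        exact hall b (by simp [hb])

theorem sum_seqs_succ {α : Type} [DecidableEq α] (P : Finset α) (n : ℕ) (f : List α → ℝ) :
    ∑ l ∈ seqs P (n + 1), f l = ∑ a ∈ P, ∑ l ∈ seqs P n, f (a :: l) := by
  rw [seqs, Finset.sum_image, Finset.sum_product]
  rintro ⟨a, t⟩ _ ⟨a', t'⟩ _ h
  simp only [List.cons.injEq] at h
  rw [h.1, h.2]

theorem sum_prod_seqs {α : Type} [DecidableEq α] (P : Finset α) (g : α → ℝ) (n : ℕ) :
    ∑ l ∈ seqs P n, (l.map g).prod = (∑ a ∈ P, g a) ^ n := by
  induction n with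
  | zero => simp [seqs]
  | succ n ih =>
    rw [sum_seqs_succ]
    simp only [List.map_cons, List.prod_cons]
    rw [pow_succ, ← ih, mul_comm, Finset.sum_mul]
    apply Finset.sum_congr rfl
    intro a _
    rw [Finset.mul_sum]

theorem mem_seqs_succ {α : Type} [DecidableEq α] (P : Finset α) (n : ℕ) (l : List α) :
    l ∈ seqs P (n + 1) ↔ ∃ a ∈ P, ∃ t ∈ seqs P n, l = a :: t := by
  simp only [seqs, Finset.mem_image, Finset.mem_product]
  constructor
  · rintro ⟨⟨a, t⟩, ⟨ha, ht⟩, rfl⟩
    exact ⟨a, ha, t, ht, rfl⟩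
  · rintro ⟨a, ha, t, ht, rfl⟩
    exact ⟨(a, t), ⟨ha, ht⟩, rfl⟩

theorem map_mem_seqs {α β : Type} [DecidableEq α] [DecidableEq β] (P : Finset α) (f : α → β)
    (n : ℕ) {l : List α} (hl : l ∈ seqs P n) : l.map f ∈ seqs (P.image f) n := by
  rw [mem_seqs] at hl ⊢
  refine ⟨by simp [hl.1], ?_⟩
  intro b hb
  obtain ⟨a, ha, rfl⟩ := List.mem_map.mp hb
  exact Finset.mem_image_of_mem f (hl.2 a ha)

/-- The integer with base-`q` digit list `l` (lowest digit first; digits are arbitrary integers). -/
def val (q : ℤ) : List ℤ → ℤ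
  | [] => 0
  | d :: l => d + q * val q l

theorem val_mem_digitSet (q : ℤ) (D : Finset ℤ) (n : ℕ) :
    ∀ l ∈ seqs D n, val q l ∈ digitSet q D n := by
  induction n with
  | zero =>
    intro l hl
    simp only [seqs, Finset.mem_singleton] at hl
    subst hl
    simp [val, digitSet]
  | succ n ih =>
    intro l hl
    obtain ⟨a, ha, t, ht, rfl⟩ := (mem_seqs_succ D n l).mp hl
    simp only [val, digitSet, Finset.mem_image₂]
    exact ⟨a, ha, val q t, ih t ht, rfl⟩

theorem val_map_sub (q j : ℤ) (l : List (ℤ × ℤ)) :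
    val q (l.map fun u => u.1 - j * u.2) =
      val q (l.map Prod.fst) - j * val q (l.map Prod.snd) := by
  induction l with
  | nil => simp [val]
  | cons u t ih =>
    simp only [List.map_cons, val]
    rw [ih]
    ring

/-- The first-coordinate value is injective on lists of pairs whose first coordinates are
pairwise incongruent modulo `q`. -/
theorem xval_injOn (q : ℤ) (hq : q ≠ 0) (P : Finset (ℤ × ℤ))
    (hP : ∀ u ∈ P, ∀ v ∈ P, u.1 % q = v.1 % q → u = v) (n : ℕ) :
    ∀ l ∈ seqs P n, ∀ l' ∈ seqs P n,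
      val q (l.map Prod.fst) = val q (l'.map Prod.fst) → l = l' := by
  induction n with
  | zero =>
    intro l hl l' hl' _
    simp only [seqs, Finset.mem_singleton] at hl hl'
    rw [hl, hl']
  | succ n ih =>
    intro l hl l' hl' h
    obtain ⟨a, ha, t, ht, rfl⟩ := (mem_seqs_succ P n l).mp hl
    obtain ⟨a', ha', t', ht', rfl⟩ := (mem_seqs_succ P n l').mp hl'
    simp only [List.map_cons, val] at h
    have hmod : a.1 % q = a'.1 % q := by
      have := congrArg (· % q) h
      simpa [Int.add_mul_emod_self_left] using this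
    have haa : a = a' := hP a ha a' ha' hmod
    subst haa
    have hv : q * val q (t.map Prod.fst) = q * val q (t'.map Prod.fst) := by linarith
    have hv' := mul_left_cancel₀ hq hv
    rw [ih t ht t' ht' hv']

end Vale.Agent.Lib.P141
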