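import Mathlib
import Vale.Agent.Lib.P141.Seqs

namespace Vale.Agent.Lib.P141

/-- Pigeonhole over permutation classes: among the lists of length `n` over `P` there is a set
`T` of lists that are permutations of one another and that carries at least the fraction
`1 / (n + 1) ^ |P|` of the total weight `(∑ v) ^ n`. -/
theorem exists_perm_class {α : Type} [DecidableEq α] (P : Finset α) (v : α → ℝ) (n : ℕ) :
    ∃ T : Finset (List α), T ⊆ seqs P n ∧ (∀ l ∈ T, ∀ l' ∈ T, l.Perm l') ∧
      (∑ a ∈ P, v a) ^ n ≤ ((n + 1 : ℝ) ^ P.card) * ∑ l ∈ T, (l.map v).prod := by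
  classical
  set t : Finset (↥P → ℕ) := Fintype.piFinset (fun _ : ↥P => Finset.range (n + 1)) with ht
  set f : List α → (↥P → ℕ) := fun l u => l.count u.1 with hf
  have hcard : t.card = (n + 1) ^ P.card := by
    rw [ht, Fintype.card_piFinset]
    simp
  have hmaps : ∀ l ∈ seqs P n, f l ∈ t := by
    intro l hl
    rw [ht, Fintype.mem_piFinset]
    intro u
    rw [Finset.mem_range]
    have h1 : l.count u.1 ≤ l.length := List.count_le_length
    have h2 := ((mem_seqs P n l).mp hl).1
    simp only [hf]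
    omega
  have htne : t.Nonempty := by
    rw [← Finset.card_pos, hcard]
    positivity
  have hcpos : (0 : ℝ) < (t.card : ℝ) := by
    exact_mod_cast Finset.card_pos.mpr htne
  have hb : t.card • ((∑ a ∈ P, v a) ^ n / t.card) ≤ ∑ l ∈ seqs P n, (l.map v).prod := by
    rw [sum_prod_seqs, nsmul_eq_mul, mul_div_cancel₀ _ hcpos.ne']
  obtain ⟨y, _, hy⟩ := Finset.exists_le_sum_fiber_of_maps_to_of_nsmul_le_sum hmaps htne hb
  refine ⟨(seqs P n).filter (fun l => f l = y), Finset.filter_subset _ _, ?_, ?_⟩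
  · intro l hl l' hl'
    rw [Finset.mem_filter] at hl hl'
    rw [List.perm_iff_count]
    intro a
    by_cases ha : a ∈ P
    · have h1 := congrFun hl.2 ⟨a, ha⟩
      have h2 := congrFun hl'.2 ⟨a, ha⟩
      simp only [hf] at h1 h2
      rw [h1, h2]
    · have h1 : a ∉ l := fun h => ha (((mem_seqs P n l).mp hl.1).2 a h)
      have h2 : a ∉ l' := fun h => ha (((mem_seqs P n l').mp hl'.1).2 a h)
      rw [List.count_eq_zero_of_not_mem h1, List.count_eq_zero_of_not_mem h2]
  · rw [div_le_iff₀ hcpos, hcard] at hy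
    push_cast at hy
    rw [mul_comm]
    exact hy

/-- Counting bound for the image of a permutation class under a digit map: if all lists in `T`
have the same product weight `c` after applying `f`, and the weights `w` sum to at most `1`
on the image of `P`, then the image of `T` has at most `1 / c` elements. -/
theorem card_image_mul_le_one (q : ℤ) (P : Finset (ℤ × ℤ)) (n : ℕ) (T : Finset (List (ℤ × ℤ)))
    (hT : T ⊆ seqs P n) (f : ℤ × ℤ → ℤ) (w : ℤ → ℝ) (hw : ∀ d ∈ P.image f, 0 ≤ w d)
    (hsum : ∑ d ∈ P.image f, w d ≤ 1) (c : ℝ)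
    (hc : ∀ l ∈ T, ((l.map f).map w).prod = c) :
    ((T.image fun l => val q (l.map f)).card : ℝ) * c ≤ 1 := by
  classical
  by_cases hne : T.Nonempty
  · obtain ⟨l0, hl0⟩ := hne
    have hnonneg : ∀ σ ∈ seqs (P.image f) n, 0 ≤ (σ.map w).prod := by
      intro σ hσ
      apply List.prod_nonneg
      intro x hx
      obtain ⟨d, hd, rfl⟩ := List.mem_map.mp hx
      exact hw d (((mem_seqs _ n σ).mp hσ).2 d hd)
    have hc0 : 0 ≤ c := by
      rw [← hc l0 hl0]
      exact hnonneg _ (map_mem_seqs P f n (hT hl0))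
    set S : Finset (List ℤ) := T.image (List.map f) with hS
    have hSsub : S ⊆ seqs (P.image f) n := by
      intro σ hσ
      rw [hS, Finset.mem_image] at hσ
      obtain ⟨l, hl, rfl⟩ := hσ
      exact map_mem_seqs P f n (hT hl)
    have himg : (T.image fun l => val q (l.map f)) = S.image (val q) := by
      rw [hS, Finset.image_image]
      rfl
    have hcard : ((T.image fun l => val q (l.map f)).card : ℝ) ≤ (S.card : ℝ) := by
      rw [himg]
      exact_mod_cast Finset.card_image_le
    have hSsum : (S.card : ℝ) * c = ∑ σ ∈ S, (σ.map w).prod := by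
      rw [Finset.sum_congr rfl (g := fun _ => c), Finset.sum_const, nsmul_eq_mul]
      intro σ hσ
      rw [hS, Finset.mem_image] at hσ
      obtain ⟨l, hl, rfl⟩ := hσ
      exact hc l hl
    have hle : ∑ σ ∈ S, (σ.map w).prod ≤ ∑ σ ∈ seqs (P.image f) n, (σ.map w).prod :=
      Finset.sum_le_sum_of_subset_of_nonneg hSsub (fun σ hσ _ => hnonneg σ hσ)
    have hpow : (∑ d ∈ P.image f, w d) ^ n ≤ 1 :=
      pow_le_one₀ (Finset.sum_nonneg hw) hsum
    calc ((T.image fun l => val q (l.map f)).card : ℝ) * c ≤ (S.card : ℝ) * c :=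
          mul_le_mul_of_nonneg_right hcard hc0
      _ = ∑ σ ∈ S, (σ.map w).prod := hSsum
      _ ≤ ∑ σ ∈ seqs (P.image f) n, (σ.map w).prod := hle
      _ = (∑ d ∈ P.image f, w d) ^ n := sum_prod_seqs _ w n
      _ ≤ 1 := hpow
  · rw [Finset.not_nonempty_iff_eq_empty] at hne
    rw [hne]
    simp

end Vale.Agent.Lib.P141
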