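import Mathlib
import Vale.Agent.Lib.P141.Defs
import Vale.Agent.Lib.P141.Digits
import Vale.Agent.Lib.P141.Seqs
import Vale.Agent.Lib.P141.Classes
import Vale.Agent.Lib.P141.Main

namespace Vale.Agent.Lib.P141

open MeasureTheory Filter Topology
open scoped ENNReal NNReal

theorem val_map_sub_one (q : ℤ) (l : List (ℤ × ℤ)) :
    val q (l.map fun u => u.1 - u.2) =
      val q (l.map Prod.fst) - val q (l.map Prod.snd) := by
  induction l with
  | nil => simp [val]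
  | cons u t ih =>
    simp only [List.map_cons, val]
    rw [ih]
    ring

theorem prod_map_rpow {α : Type} (l : List α) (h1 h2 h3 : α → ℝ)
    (pos1 : ∀ u ∈ l, 0 < h1 u) (pos2 : ∀ u ∈ l, 0 < h2 u) (pos3 : ∀ u ∈ l, 0 < h3 u)
    (a1 a2 a3 ρ : ℝ) :
    (l.map fun u => (h1 u ^ a1 * h2 u ^ a2 * h3 u ^ a3) ^ ρ).prod =
      ((l.map h1).prod ^ a1 * (l.map h2).prod ^ a2 * (l.map h3).prod ^ a3) ^ ρ := by
  induction l with
  | nil => simp
  | cons u t ih =>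
    have ih' := ih (fun x hx => pos1 x (List.mem_cons_of_mem _ hx))
      (fun x hx => pos2 x (List.mem_cons_of_mem _ hx))
      (fun x hx => pos3 x (List.mem_cons_of_mem _ hx))
    have p1 : 0 < h1 u := pos1 u (by simp)
    have p2 : 0 < h2 u := pos2 u (by simp)
    have p3 : 0 < h3 u := pos3 u (by simp)
    have P1 : 0 < (t.map h1).prod := by
      apply List.prod_pos
      intro x hx
      obtain ⟨y, hy, rfl⟩ := List.mem_map.mp hx
      exact pos1 y (List.mem_cons_of_mem _ hy)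
    have P2 : 0 < (t.map h2).prod := by
      apply List.prod_pos
      intro x hx
      obtain ⟨y, hy, rfl⟩ := List.mem_map.mp hx
      exact pos2 y (List.mem_cons_of_mem _ hy)
    have P3 : 0 < (t.map h3).prod := by
      apply List.prod_pos
      intro x hx
      obtain ⟨y, hy, rfl⟩ := List.mem_map.mp hx
      exact pos3 y (List.mem_cons_of_mem _ hy)
    simp only [List.map_cons, List.prod_cons]
    rw [ih', Real.mul_rpow p1.le P1.le, Real.mul_rpow p2.le P2.le, Real.mul_rpow p3.le P3.le]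
    rw [← Real.mul_rpow (by positivity) (by positivity)]
    congr 1
    ring

theorem exists_pow_gt (ρ0 : ℝ) (h : 1 < ρ0) (K : ℕ) (C' : ℝ) :
    ∃ n : ℕ, C' * ((n : ℝ) + 1) ^ K < ρ0 ^ n := by
  have h0 : (0 : ℝ) < ρ0 := by linarith
  have ht := tendsto_pow_const_div_const_pow_of_one_lt K h
  have ht' := (tendsto_add_atTop_iff_nat 1).mpr ht
  have hε : (0 : ℝ) < 1 / (ρ0 * (|C'| + 1)) := by positivity
  have hev := (tendsto_order.mp ht').2 _ hε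
  obtain ⟨n, hn⟩ := hev.exists
  refine ⟨n, ?_⟩
  have hpos : (0 : ℝ) < ρ0 ^ (n + 1) := pow_pos h0 _
  rw [div_lt_iff₀ hpos] at hn
  push_cast at hn
  have e : 1 / (ρ0 * (|C'| + 1)) * ρ0 ^ (n + 1) = ρ0 ^ n / (|C'| + 1) := by
    rw [pow_succ]
    field_simp
  rw [e, lt_div_iff₀ (by positivity)] at hn
  have hnn : (0 : ℝ) ≤ ((n : ℝ) + 1) ^ K := by positivity
  calc C' * ((n : ℝ) + 1) ^ K ≤ |C'| * ((n : ℝ) + 1) ^ K :=
        mul_le_mul_of_nonneg_right (le_abs_self _) hnn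
    _ ≤ ((n : ℝ) + 1) ^ K * (|C'| + 1) := by nlinarith
    _ < ρ0 ^ n := hn

/-- The inequality obtained from the `n`-digit construction restricted to a permutation class
of digit sequences (weighted version). -/
theorem key_weighted (q : ℕ) (hq : 2 ≤ q) (P : Finset (ℤ × ℤ))
    (hP : ∀ u ∈ P, ∀ v ∈ P, u.1 % (q : ℤ) = v.1 % (q : ℤ) → u = v)
    (w1 w2 w3 : ℤ → ℝ)
    (hw1 : ∀ u ∈ P, 0 < w1 (u.1 - u.2)) (hw2 : ∀ u ∈ P, 0 < w2 (u.1 - 2 * u.2))
    (hw3 : ∀ u ∈ P, 0 < w3 (u.1 - 3 * u.2))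
    (hs1 : ∑ d ∈ P.image (fun u : ℤ × ℤ => u.1 - u.2), w1 d ≤ 1)
    (hs2 : ∑ d ∈ P.image (fun u : ℤ × ℤ => u.1 - 2 * u.2), w2 d ≤ 1)
    (hs3 : ∑ d ∈ P.image (fun u : ℤ × ℤ => u.1 - 3 * u.2), w3 d ≤ 1)
    {p1 p2 p3 r : ℝ≥0∞} (hr0 : r ≠ 0) (hrtop : r ≠ ∞) {C : ℝ≥0}
    (hC : ∀ f1 f2 f3 : SchwartzMap ℝ ℂ,
      eLpNorm (triHilbert f1 f2 f3) r volume ≤
        C * eLpNorm f1 p1 volume * eLpNorm f2 p2 volume * eLpNorm f3 p3 volume)
    (hPne : P.Nonempty)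
    (M : ℤ) (hM1 : 1 ≤ M)
    (hMD1 : ∀ d ∈ (P.image fun u : ℤ × ℤ => u.1 - u.2), |d| ≤ M)
    (hMD2 : ∀ d ∈ (P.image fun u : ℤ × ℤ => u.1 - 2 * u.2), |d| ≤ M) (n : ℕ) :
    (1 / 8) / (4 * ((M : ℝ) * (q : ℝ) ^ n) + 3) *
      (((∑ u ∈ P, (w1 (u.1 - u.2) ^ (1 / p1.toReal) * w2 (u.1 - 2 * u.2) ^ (1 / p2.toReal) *
          w3 (u.1 - 3 * u.2) ^ (1 / p3.toReal)) ^ r.toReal) ^ n / ((n : ℝ) + 1) ^ P.card) ^
        (1 / r.toReal) * (1 / 8 : ℝ) ^ (1 / r.toReal)) ≤ C := by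
  classical
  have hqZ : (2 : ℤ) ≤ (q : ℤ) := by exact_mod_cast hq
  have hρ : 0 < r.toReal := ENNReal.toReal_pos hr0 hrtop
  have ha1 : 0 ≤ 1 / p1.toReal := by positivity
  have ha2 : 0 ≤ 1 / p2.toReal := by positivity
  have ha3 : 0 ≤ 1 / p3.toReal := by positivity
  set a1 : ℝ := 1 / p1.toReal with ha1def
  set a2 : ℝ := 1 / p2.toReal with ha2def
  set a3 : ℝ := 1 / p3.toReal with ha3def
  set ρ : ℝ := r.toReal with hρdef
  set f1 : ℤ × ℤ → ℤ := fun u => u.1 - u.2 with hf1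
  set f2 : ℤ × ℤ → ℤ := fun u => u.1 - 2 * u.2 with hf2
  set f3 : ℤ × ℤ → ℤ := fun u => u.1 - 3 * u.2 with hf3
  set v : ℤ × ℤ → ℝ := fun u => (w1 (f1 u) ^ a1 * w2 (f2 u) ^ a2 * w3 (f3 u) ^ a3) ^ ρ with hv
  have hvpos : ∀ u ∈ P, 0 < v u := by
    intro u hu
    have := hw1 u hu
    have := hw2 u hu
    have := hw3 u hu
    simp only [hv, hf1, hf2, hf3]
    positivity
  have hZ : 0 < ∑ u ∈ P, v u := Finset.sum_pos hvpos hPne
  obtain ⟨T, hTsub, hTperm, hTsum⟩ := exists_perm_class P v n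
  have hTne : T.Nonempty := by
    by_contra hne
    rw [Finset.not_nonempty_iff_eq_empty] at hne
    rw [hne] at hTsum
    simp only [Finset.sum_empty, mul_zero] at hTsum
    have := pow_pos hZ n
    linarith
  obtain ⟨l0, hl0⟩ := hTne
  have hmemP : ∀ l ∈ T, ∀ u ∈ l, u ∈ P := fun l hl => ((mem_seqs P n l).mp (hTsub hl)).2
  set c1 : ℝ := ((l0.map f1).map w1).prod with hc1def
  set c2 : ℝ := ((l0.map f2).map w2).prod with hc2def
  set c3 : ℝ := ((l0.map f3).map w3).prod with hc3def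
  have hc1 : ∀ l ∈ T, ((l.map f1).map w1).prod = c1 := fun l hl =>
    (((hTperm l hl l0 hl0).map f1).map w1).prod_eq
  have hc2 : ∀ l ∈ T, ((l.map f2).map w2).prod = c2 := fun l hl =>
    (((hTperm l hl l0 hl0).map f2).map w2).prod_eq
  have hc3 : ∀ l ∈ T, ((l.map f3).map w3).prod = c3 := fun l hl =>
    (((hTperm l hl l0 hl0).map f3).map w3).prod_eq
  have hc1pos : 0 < c1 := by
    apply List.prod_pos
    intro x hx
    simp only [List.map_map, List.mem_map, Function.comp] at hx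
    obtain ⟨u, hu, rfl⟩ := hx
    exact hw1 u (hmemP l0 hl0 u hu)
  have hc2pos : 0 < c2 := by
    apply List.prod_pos
    intro x hx
    simp only [List.map_map, List.mem_map, Function.comp] at hx
    obtain ⟨u, hu, rfl⟩ := hx
    exact hw2 u (hmemP l0 hl0 u hu)
  have hc3pos : 0 < c3 := by
    apply List.prod_pos
    intro x hx
    simp only [List.map_map, List.mem_map, Function.comp] at hx
    obtain ⟨u, hu, rfl⟩ := hx
    exact hw3 u (hmemP l0 hl0 u hu)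
  set G : ℝ := c1 ^ a1 * c2 ^ a2 * c3 ^ a3 with hG
  have hGpos : 0 < G := by positivity
  have hV : ∀ l ∈ T, (l.map v).prod = G ^ ρ := by
    intro l hl
    have h := prod_map_rpow l (fun u => w1 (f1 u)) (fun u => w2 (f2 u)) (fun u => w3 (f3 u))
      (fun u hu => hw1 u (hmemP l hl u hu)) (fun u hu => hw2 u (hmemP l hl u hu))
      (fun u hu => hw3 u (hmemP l hl u hu)) a1 a2 a3 ρ
    have e1 : (l.map fun u => w1 (f1 u)).prod = c1 := by
      rw [← hc1 l hl, List.map_map]; rfl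
    have e2 : (l.map fun u => w2 (f2 u)).prod = c2 := by
      rw [← hc2 l hl, List.map_map]; rfl
    have e3 : (l.map fun u => w3 (f3 u)).prod = c3 := by
      rw [← hc3 l hl, List.map_map]; rfl
    rw [e1, e2, e3] at h
    exact h
  have hTsum' : (∑ u ∈ P, v u) ^ n ≤ ((n : ℝ) + 1) ^ P.card * ((T.card : ℝ) * G ^ ρ) := by
    rw [Finset.sum_congr rfl hV, Finset.sum_const, nsmul_eq_mul] at hTsum
    exact hTsum
  -- cardinalities of the three image sets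
  have hA1 := card_image_mul_le_one (q : ℤ) P n T hTsub f1 w1 (by
    intro d hd
    obtain ⟨u, hu, rfl⟩ := Finset.mem_image.mp hd
    exact (hw1 u hu).le) hs1 c1 hc1
  have hA2 := card_image_mul_le_one (q : ℤ) P n T hTsub f2 w2 (by
    intro d hd
    obtain ⟨u, hu, rfl⟩ := Finset.mem_image.mp hd
    exact (hw2 u hu).le) hs2 c2 hc2
  have hA3 := card_image_mul_le_one (q : ℤ) P n T hTsub f3 w3 (by
    intro d hd
    obtain ⟨u, hu, rfl⟩ := Finset.mem_image.mp hd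
    exact (hw3 u hu).le) hs3 c3 hc3
  set A1 : Finset ℤ := T.image fun l => val (q : ℤ) (l.map f1) with hA1def
  set A2 : Finset ℤ := T.image fun l => val (q : ℤ) (l.map f2) with hA2def
  set A3 : Finset ℤ := T.image fun l => val (q : ℤ) (l.map f3) with hA3def
  set X : Finset ℤ := T.image fun l => val (q : ℤ) (l.map Prod.fst) with hXdef
  have hXcard : X.card = T.card := by
    apply Finset.card_image_of_injOn
    intro l hl l' hl' h
    exact xval_injOn (q : ℤ) (by omega) P hP n l (hTsub hl) l' (hTsub hl') h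
  have hX : ∀ x' ∈ X, ∃ t' : ℤ, x' - t' ∈ A1 ∧ x' - 2 * t' ∈ A2 ∧ x' - 3 * t' ∈ A3 := by
    intro x' hx'
    obtain ⟨l, hl, rfl⟩ := Finset.mem_image.mp hx'
    refine ⟨val (q : ℤ) (l.map Prod.snd), ?_, ?_, ?_⟩
    · rw [← val_map_sub_one]; exact Finset.mem_image_of_mem _ hl
    · rw [← val_map_sub]; exact Finset.mem_image_of_mem _ hl
    · rw [← val_map_sub]; exact Finset.mem_image_of_mem _ hl
  have hM1R : (1 : ℝ) ≤ (M : ℝ) := by exact_mod_cast hM1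
  have hq1R : (1 : ℝ) ≤ (q : ℝ) := by
    have : (1 : ℕ) ≤ q := by omega
    exact_mod_cast this
  have hqn : (1 : ℝ) ≤ (q : ℝ) ^ n := one_le_pow₀ hq1R
  have hB0 : (0 : ℝ) ≤ (M : ℝ) * (q : ℝ) ^ n := by nlinarith
  have hb : ∀ D : Finset ℤ, (∀ d ∈ D, |d| ≤ M) →
      ∀ y ∈ digitSet (q : ℤ) D n, |(y : ℝ)| ≤ (M : ℝ) * (q : ℝ) ^ n := by
    intro D hD y hy
    have h := abs_le_of_mem_digitSet (q : ℤ) hqZ D M hD n y hy
    have h' : |y| ≤ M * (q : ℤ) ^ n := by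
      have : M * ((q : ℤ) ^ n - 1) ≤ M * (q : ℤ) ^ n := by nlinarith
      omega
    have h'' : ((|y| : ℤ) : ℝ) ≤ ((M * (q : ℤ) ^ n : ℤ) : ℝ) := by exact_mod_cast h'
    push_cast at h''
    exact h''
  have hbA1 : ∀ y ∈ A1, |(y : ℝ)| ≤ (M : ℝ) * (q : ℝ) ^ n := by
    intro y hy
    obtain ⟨l, hl, rfl⟩ := Finset.mem_image.mp hy
    exact hb _ hMD1 _ (val_mem_digitSet (q : ℤ) _ n _ (map_mem_seqs P f1 n (hTsub hl)))
  have hbA2 : ∀ y ∈ A2, |(y : ℝ)| ≤ (M : ℝ) * (q : ℝ) ^ n := by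
    intro y hy
    obtain ⟨l, hl, rfl⟩ := Finset.mem_image.mp hy
    exact hb _ hMD2 _ (val_mem_digitSet (q : ℤ) _ n _ (map_mem_seqs P f2 n (hTsub hl)))
  have hineq := real_ineq_of_bounded hr0 hrtop hC hB0 hbA1 hbA2 hX
  rw [hXcard] at hineq
  -- real algebra
  have hC0 : (0 : ℝ) ≤ (C : ℝ) := C.coe_nonneg
  have hcardle : ∀ (A : Finset ℤ) (c a : ℝ), 0 < c → 0 ≤ a → (A.card : ℝ) * c ≤ 1 →
      (A.card : ℝ) ^ a ≤ 1 / c ^ a := by
    intro A c a hc ha h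
    have h1 : (A.card : ℝ) ≤ 1 / c := by rw [le_div_iff₀ hc]; exact h
    calc (A.card : ℝ) ^ a ≤ (1 / c) ^ a := Real.rpow_le_rpow (Nat.cast_nonneg _) h1 ha
      _ = 1 / c ^ a := by rw [Real.div_rpow zero_le_one hc.le, Real.one_rpow]
  have g1 := hcardle A1 c1 a1 hc1pos ha1 hA1
  have g2 := hcardle A2 c2 a2 hc2pos ha2 hA2
  have g3 := hcardle A3 c3 a3 hc3pos ha3 hA3
  have n1 : (0 : ℝ) ≤ (A1.card : ℝ) ^ a1 := Real.rpow_nonneg (Nat.cast_nonneg _) _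
  have n2 : (0 : ℝ) ≤ (A2.card : ℝ) ^ a2 := Real.rpow_nonneg (Nat.cast_nonneg _) _
  have n3 : (0 : ℝ) ≤ (A3.card : ℝ) ^ a3 := Real.rpow_nonneg (Nat.cast_nonneg _) _
  have hrhs : (C : ℝ) * (A1.card : ℝ) ^ a1 * (A2.card : ℝ) ^ a2 * (A3.card : ℝ) ^ a3 ≤
      (C : ℝ) / G := by
    have m1 := mul_le_mul_of_nonneg_left g1 hC0
    have m2 := mul_le_mul m1 g2 n2 (le_trans (mul_nonneg hC0 n1) m1)
    have m3 := mul_le_mul m2 g3 n3 (le_trans (mul_nonneg (mul_nonneg hC0 n1) n2) m2)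
    refine le_trans m3 (le_of_eq ?_)
    rw [hG]
    have q1 : 0 < c1 ^ a1 := Real.rpow_pos_of_pos hc1pos _
    have q2 : 0 < c2 ^ a2 := Real.rpow_pos_of_pos hc2pos _
    have q3 : 0 < c3 ^ a3 := Real.rpow_pos_of_pos hc3pos _
    field_simp
  set W : ℝ := (∑ u ∈ P, v u) ^ n / ((n : ℝ) + 1) ^ P.card with hW
  have hn1 : (0 : ℝ) < ((n : ℝ) + 1) ^ P.card := by positivity
  have hWpos : 0 < W := div_pos (pow_pos hZ n) hn1
  have hGρ : 0 < G ^ ρ := Real.rpow_pos_of_pos hGpos _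
  have hTcard : W / G ^ ρ ≤ (T.card : ℝ) := by
    rw [div_le_iff₀ hGρ, hW, div_le_iff₀ hn1]
    calc (∑ u ∈ P, v u) ^ n ≤ ((n : ℝ) + 1) ^ P.card * ((T.card : ℝ) * G ^ ρ) := hTsum'
      _ = (T.card : ℝ) * G ^ ρ * ((n : ℝ) + 1) ^ P.card := by ring
  have hspos : 0 < 1 / ρ := by positivity
  have hlhs : W ^ (1 / ρ) * (1 / 8 : ℝ) ^ (1 / ρ) / G ≤ ((T.card : ℝ) * (1 / 8)) ^ (1 / ρ) := by
    have e : W ^ (1 / ρ) * (1 / 8 : ℝ) ^ (1 / ρ) / G = (W / G ^ ρ * (1 / 8)) ^ (1 / ρ) := by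
      rw [Real.mul_rpow (div_pos hWpos hGρ).le (by norm_num), Real.div_rpow hWpos.le hGρ.le,
        ← Real.rpow_mul hGpos.le, mul_one_div_cancel hρ.ne', Real.rpow_one]
      ring
    rw [e]
    apply Real.rpow_le_rpow (by positivity) _ hspos.le
    exact mul_le_mul_of_nonneg_right hTcard (by norm_num)
  have hcoef : (0 : ℝ) ≤ (1 / 8) / (4 * ((M : ℝ) * (q : ℝ) ^ n) + 3) := by
    apply div_nonneg (by norm_num); linarith
  have hfinal : (1 / 8) / (4 * ((M : ℝ) * (q : ℝ) ^ n) + 3) *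
      (W ^ (1 / ρ) * (1 / 8 : ℝ) ^ (1 / ρ) / G) ≤ (C : ℝ) / G :=
    le_trans (mul_le_mul_of_nonneg_left hlhs hcoef) (le_trans hineq hrhs)
  have e2 : (1 / 8) / (4 * ((M : ℝ) * (q : ℝ) ^ n) + 3) *
      (W ^ (1 / ρ) * (1 / 8 : ℝ) ^ (1 / ρ) / G) =
      ((1 / 8) / (4 * ((M : ℝ) * (q : ℝ) ^ n) + 3) *
        (W ^ (1 / ρ) * (1 / 8 : ℝ) ^ (1 / ρ))) / G := by ring
  rw [e2, div_le_div_iff_of_pos_right hGpos] at hfinal
  exact hfinal

/-- Pure real analysis: the inequalities obtained from the weighted digit construction cannot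
hold for all `n` when the gap condition holds (a polynomial loss is allowed). -/
theorem no_uniform_constant_poly (w M u e C : ℝ) (K : ℕ) (hw : 0 < w)
    (hwM : ∀ n : ℕ, 1 ≤ M * w ^ n) (he : 0 < e) (hgap : w < u)
    (key : ∀ n : ℕ, (1 / 8) / (4 * (M * w ^ n) + 3) * (u ^ n / ((n : ℝ) + 1) ^ K * e) ≤ C) :
    False := by
  have hu : 0 < u := lt_trans hw hgap
  have hρ : 1 < u / w := by rw [one_lt_div hw]; exact hgap
  obtain ⟨n, hn⟩ := exists_pow_gt (u / w) hρ K (7 * M * C / ((1 / 8) * e))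
  have hk := key n
  have hT := hwM n
  set T := M * w ^ n with hTdef
  have hwn : 0 < w ^ n := pow_pos hw n
  have hnK : (0 : ℝ) < ((n : ℝ) + 1) ^ K := by positivity
  have h7 : (1 / 8) / (7 * T) ≤ (1 / 8) / (4 * T + 3) := by
    apply div_le_div_of_nonneg_left (by norm_num) (by linarith) (by linarith)
  have hun : 0 ≤ u ^ n / ((n : ℝ) + 1) ^ K * e := by positivity
  have h1 : (1 / 8) / (7 * T) * (u ^ n / ((n : ℝ) + 1) ^ K * e) ≤ C :=
    le_trans (mul_le_mul_of_nonneg_right h7 hun) hk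
  have hT0 : 0 < 7 * T := by linarith
  have h2 : (1 / 8) * e * u ^ n ≤ 7 * T * C * ((n : ℝ) + 1) ^ K := by
    have h3 := mul_le_mul_of_nonneg_left h1 (mul_pos hT0 hnK).le
    have e2 : 7 * T * ((n : ℝ) + 1) ^ K * ((1 / 8) / (7 * T) * (u ^ n / ((n : ℝ) + 1) ^ K * e)) =
        (1 / 8) * e * u ^ n := by
      field_simp
    rw [e2] at h3
    linarith
  have hu' : u ^ n = (u / w) ^ n * w ^ n := by
    rw [← mul_pow, div_mul_cancel₀ _ hw.ne']
  have h4 : (1 / 8) * e * (u / w) ^ n ≤ 7 * M * C * ((n : ℝ) + 1) ^ K := by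
    have h5 : ((1 / 8) * e * (u / w) ^ n) * w ^ n ≤ (7 * M * C * ((n : ℝ) + 1) ^ K) * w ^ n := by
      calc ((1 / 8) * e * (u / w) ^ n) * w ^ n = (1 / 8) * e * u ^ n := by rw [hu']; ring
        _ ≤ 7 * T * C * ((n : ℝ) + 1) ^ K := h2
        _ = (7 * M * C * ((n : ℝ) + 1) ^ K) * w ^ n := by rw [hTdef]; ring
    exact le_of_mul_le_mul_right h5 hwn
  have hke : 0 < (1 / 8) * e := by positivity
  have h6 : 7 * M * C / ((1 / 8) * e) * ((n : ℝ) + 1) ^ K < (u / w) ^ n := hn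
  have h7' : 7 * M * C / ((1 / 8) * e) * ((n : ℝ) + 1) ^ K =
      7 * M * C * ((n : ℝ) + 1) ^ K / ((1 / 8) * e) := by ring
  rw [h7', div_lt_iff₀ hke] at h6
  linarith

/-- Weighted criterion. `P` is a finite set of pairs `(e, τ)` of integers whose first
coordinates are pairwise incongruent modulo `q`; `w1, w2, w3` are positive weights on the three
sets `D_j = {e - j τ}` with total mass at most `1` each. If
`q ^ r < ∑_{(e,τ) ∈ P} (w1(e-τ)^(1/p1) * w2(e-2τ)^(1/p2) * w3(e-3τ)^(1/p3)) ^ r`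
then the trilinear Hilbert transform is not bounded at `(p1, p2, p3, r)`. -/
theorem unbounded_of_weights (q : ℕ) (hq : 2 ≤ q) (P : Finset (ℤ × ℤ))
    (hP : ∀ u ∈ P, ∀ v ∈ P, u.1 % (q : ℤ) = v.1 % (q : ℤ) → u = v)
    (w1 w2 w3 : ℤ → ℝ)
    (hw1 : ∀ u ∈ P, 0 < w1 (u.1 - u.2)) (hw2 : ∀ u ∈ P, 0 < w2 (u.1 - 2 * u.2))
    (hw3 : ∀ u ∈ P, 0 < w3 (u.1 - 3 * u.2))
    (hs1 : ∑ d ∈ P.image (fun u : ℤ × ℤ => u.1 - u.2), w1 d ≤ 1)
    (hs2 : ∑ d ∈ P.image (fun u : ℤ × ℤ => u.1 - 2 * u.2), w2 d ≤ 1)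
    (hs3 : ∑ d ∈ P.image (fun u : ℤ × ℤ => u.1 - 3 * u.2), w3 d ≤ 1)
    (p1 p2 p3 r : ℝ≥0∞) (hr0 : r ≠ 0) (hrtop : r ≠ ∞)
    (hgap : (q : ℝ) ^ r.toReal <
      ∑ u ∈ P, (w1 (u.1 - u.2) ^ (1 / p1.toReal) * w2 (u.1 - 2 * u.2) ^ (1 / p2.toReal) *
          w3 (u.1 - 3 * u.2) ^ (1 / p3.toReal)) ^ r.toReal) :
    ¬ BoundedAt p1 p2 p3 r := by
  rintro ⟨C, hC⟩
  have hρ : 0 < r.toReal := ENNReal.toReal_pos hr0 hrtop
  have hq0 : (0 : ℝ) < (q : ℝ) := by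
    have : 0 < q := by omega
    exact_mod_cast this
  have hq1R : (1 : ℝ) ≤ (q : ℝ) := by
    have : (1 : ℕ) ≤ q := by omega
    exact_mod_cast this
  have hPne : P.Nonempty := by
    by_contra hne
    rw [Finset.not_nonempty_iff_eq_empty] at hne
    rw [hne, Finset.sum_empty] at hgap
    have : (0 : ℝ) < (q : ℝ) ^ r.toReal := Real.rpow_pos_of_pos hq0 _
    linarith
  set Z : ℝ := ∑ u ∈ P, (w1 (u.1 - u.2) ^ (1 / p1.toReal) * w2 (u.1 - 2 * u.2) ^ (1 / p2.toReal) *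
          w3 (u.1 - 3 * u.2) ^ (1 / p3.toReal)) ^ r.toReal with hZdef
  have hZpos : 0 < Z := lt_trans (Real.rpow_pos_of_pos hq0 _) hgap
  set S : ℤ := ∑ d ∈ (P.image fun u : ℤ × ℤ => u.1 - u.2) ∪
      (P.image fun u : ℤ × ℤ => u.1 - 2 * u.2), |d| with hSdef
  have hsum0 : 0 ≤ S := Finset.sum_nonneg (fun _ _ => abs_nonneg _)
  have hMD1 : ∀ d ∈ (P.image fun u : ℤ × ℤ => u.1 - u.2), |d| ≤ S + 1 := by
    intro d hd
    have h : |d| ≤ S :=
      Finset.single_le_sum (f := fun d : ℤ => |d|) (fun _ _ => abs_nonneg _)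
        (Finset.mem_union_left _ hd)
    omega
  have hMD2 : ∀ d ∈ (P.image fun u : ℤ × ℤ => u.1 - 2 * u.2), |d| ≤ S + 1 := by
    intro d hd
    have h : |d| ≤ S :=
      Finset.single_le_sum (f := fun d : ℤ => |d|) (fun _ _ => abs_nonneg _)
        (Finset.mem_union_right _ hd)
    omega
  have key := key_weighted q hq P hP w1 w2 w3 hw1 hw2 hw3 hs1 hs2 hs3 hr0 hrtop hC hPne
    (S + 1) (by omega) hMD1 hMD2
  have hM1R : (1 : ℝ) ≤ ((S + 1 : ℤ) : ℝ) := by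
    have : (1 : ℤ) ≤ S + 1 := by omega
    exact_mod_cast this
  have hwM : ∀ n : ℕ, 1 ≤ ((S + 1 : ℤ) : ℝ) * (q : ℝ) ^ n := by
    intro n
    have : (1 : ℝ) ≤ (q : ℝ) ^ n := one_le_pow₀ hq1R
    nlinarith
  have hspos : 0 < 1 / r.toReal := by positivity
  set m : ℕ := ⌈1 / r.toReal⌉₊ with hm
  have hgap' : (q : ℝ) < Z ^ (1 / r.toReal) := by
    have h1 : ((q : ℝ) ^ r.toReal) ^ (1 / r.toReal) < Z ^ (1 / r.toReal) :=
      Real.rpow_lt_rpow (Real.rpow_pos_of_pos hq0 _).le hgap hspos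
    rw [← Real.rpow_mul hq0.le, mul_one_div_cancel hρ.ne', Real.rpow_one] at h1
    exact h1
  have he : (0 : ℝ) < (1 / 8 : ℝ) ^ (1 / r.toReal) := by positivity
  apply no_uniform_constant_poly (q : ℝ) ((S + 1 : ℤ) : ℝ) (Z ^ (1 / r.toReal))
    ((1 / 8 : ℝ) ^ (1 / r.toReal)) (C : ℝ) (m * P.card) hq0 hwM he hgap'
  intro n
  refine le_trans ?_ (key n)
  have hcoef : (0 : ℝ) ≤ (1 / 8) / (4 * (((S + 1 : ℤ) : ℝ) * (q : ℝ) ^ n) + 3) := by
    apply div_nonneg (by norm_num)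
    have := hwM n
    linarith
  apply mul_le_mul_of_nonneg_left _ hcoef
  apply mul_le_mul_of_nonneg_right _ he.le
  have hn1 : (1 : ℝ) ≤ (n : ℝ) + 1 := by
    have : (0 : ℝ) ≤ (n : ℝ) := Nat.cast_nonneg n
    linarith
  have hn0 : (0 : ℝ) < (n : ℝ) + 1 := by linarith
  rw [Real.div_rpow (pow_pos hZpos n).le (by positivity), pow_rpow_comm _ hZpos.le,
    pow_rpow_comm _ hn0.le]
  have hle : ((n : ℝ) + 1) ^ (1 / r.toReal) ≤ ((n : ℝ) + 1) ^ m := by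
    rw [← Real.rpow_natCast]
    exact Real.rpow_le_rpow_of_exponent_le hn1 (Nat.le_ceil _)
  have hpos1 : (0 : ℝ) < (((n : ℝ) + 1) ^ (1 / r.toReal)) ^ P.card := by positivity
  have hle2 : (((n : ℝ) + 1) ^ (1 / r.toReal)) ^ P.card ≤ ((n : ℝ) + 1) ^ (m * P.card) := by
    rw [pow_mul]
    exact pow_le_pow_left₀ (by positivity) hle _
  exact div_le_div_of_nonneg_left (by positivity) hpos1 hle2

end Vale.Agent.Lib.P141
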