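import Mathlib
import Vale.Agent.Lib.P141.Defs
import Vale.Agent.Lib.P141.Weighted
import Vale.Agent.Lib.P141.Explicit

namespace Vale.Agent.Lib.P141

open scoped ENNReal NNReal

/-- Weighted arithmetic-geometric mean inequality in the form needed for the entropy bound. -/
theorem gap_of_entropy {ι : Type} (P : Finset ι) (μ : ι → ℝ) (hμpos : ∀ u ∈ P, 0 < μ u)
    (hμsum : ∑ u ∈ P, μ u = 1) (x1 x2 x3 : ι → ℝ) (pos1 : ∀ u ∈ P, 0 < x1 u)
    (pos2 : ∀ u ∈ P, 0 < x2 u) (pos3 : ∀ u ∈ P, 0 < x3 u) (a1 a2 a3 ρ Q : ℝ) (hQ : 0 < Q)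
    (h : ρ * Real.log Q < ∑ u ∈ P, μ u * (ρ * (a1 * Real.log (x1 u) + a2 * Real.log (x2 u) +
      a3 * Real.log (x3 u)) - Real.log (μ u))) :
    Q ^ ρ < ∑ u ∈ P, (x1 u ^ a1 * x2 u ^ a2 * x3 u ^ a3) ^ ρ := by
  set v : ι → ℝ := fun u => (x1 u ^ a1 * x2 u ^ a2 * x3 u ^ a3) ^ ρ with hv
  have hvpos : ∀ u ∈ P, 0 < v u := by
    intro u hu
    have := pos1 u hu
    have := pos2 u hu
    have := pos3 u hu
    simp only [hv]
    positivity
  have hz : ∀ u ∈ P, 0 < v u / μ u := fun u hu => div_pos (hvpos u hu) (hμpos u hu)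
  have hamgm := Real.geom_mean_le_arith_mean_weighted P μ (fun u => v u / μ u)
    (fun u hu => (hμpos u hu).le) hμsum (fun u hu => (hz u hu).le)
  have hsum : ∑ u ∈ P, μ u * (v u / μ u) = ∑ u ∈ P, v u := by
    apply Finset.sum_congr rfl
    intro u hu
    have := (hμpos u hu).ne'
    field_simp
  rw [hsum] at hamgm
  refine lt_of_lt_of_le ?_ hamgm
  have hprodpos : 0 < ∏ u ∈ P, (v u / μ u) ^ μ u :=
    Finset.prod_pos (fun u hu => Real.rpow_pos_of_pos (hz u hu) _)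
  have hQρ : 0 < Q ^ ρ := Real.rpow_pos_of_pos hQ _
  rw [← Real.log_lt_log_iff hQρ hprodpos, Real.log_rpow hQ, Real.log_prod]
  · refine lt_of_lt_of_eq h ?_
    apply Finset.sum_congr rfl
    intro u hu
    have p1 := pos1 u hu
    have p2 := pos2 u hu
    have p3 := pos3 u hu
    have q1 : 0 < x1 u ^ a1 := Real.rpow_pos_of_pos p1 _
    have q2 : 0 < x2 u ^ a2 := Real.rpow_pos_of_pos p2 _
    have q3 : 0 < x3 u ^ a3 := Real.rpow_pos_of_pos p3 _
    rw [Real.log_rpow (hz u hu), Real.log_div (hvpos u hu).ne' (hμpos u hu).ne']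
    simp only [hv]
    rw [Real.log_rpow (by positivity), Real.log_mul (by positivity) q3.ne',
      Real.log_mul q1.ne' q2.ne', Real.log_rpow p1, Real.log_rpow p2, Real.log_rpow p3]
  · intro u hu
    exact (Real.rpow_pos_of_pos (hz u hu) _).ne'

/-- Marginal count: the total count `m` of the pairs of `P` whose image under `f` is `d`. -/
def mcount (P : Finset (ℤ × ℤ)) (m : ℤ × ℤ → ℕ) (f : ℤ × ℤ → ℤ) (d : ℤ) : ℕ :=
  ∑ u ∈ P.filter (fun u => f u = d), m u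

theorem sum_mcount (P : Finset (ℤ × ℤ)) (m : ℤ × ℤ → ℕ) (f : ℤ × ℤ → ℤ) :
    ∑ d ∈ P.image f, mcount P m f d = ∑ u ∈ P, m u := by
  unfold mcount
  exact Finset.sum_fiberwise_of_maps_to (fun u hu => Finset.mem_image_of_mem f hu) m

theorem le_mcount (P : Finset (ℤ × ℤ)) (m : ℤ × ℤ → ℕ) (f : ℤ × ℤ → ℤ) {u : ℤ × ℤ}
    (hu : u ∈ P) : m u ≤ mcount P m f (f u) := by
  unfold mcount
  exact Finset.single_le_sum (f := m) (fun _ _ => Nat.zero_le _)
    (Finset.mem_filter.mpr ⟨hu, rfl⟩)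

/-- Logarithmic form of the natural-number hypothesis of the counting criterion. -/
theorem log_of_counts (q : ℕ) (hq : 2 ≤ q) (P : Finset (ℤ × ℤ)) (m c : ℤ × ℤ → ℕ)
    (hm : ∀ u ∈ P, 0 < m u) (hc : ∀ u ∈ P, 0 < c u) (α β : ℕ)
    (h : q ^ (α * ∑ u ∈ P, m u) * (∏ u ∈ P, m u ^ m u) ^ β ≤ (∏ u ∈ P, c u ^ m u) ^ β) :
    (α : ℝ) * ((∑ u ∈ P, m u : ℕ) : ℝ) * Real.log q ≤
      β * ∑ u ∈ P, (m u : ℝ) * (Real.log (c u) - Real.log (m u)) := by
  have hq0 : (0 : ℝ) < (q : ℝ) := by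
    have : 0 < q := by omega
    exact_mod_cast this
  have hR : ((q ^ (α * ∑ u ∈ P, m u) * (∏ u ∈ P, m u ^ m u) ^ β : ℕ) : ℝ) ≤
      (((∏ u ∈ P, c u ^ m u) ^ β : ℕ) : ℝ) := by exact_mod_cast h
  push_cast at hR
  have hA : (0 : ℝ) < ∏ u ∈ P, (m u : ℝ) ^ m u :=
    Finset.prod_pos (fun u hu => pow_pos (by exact_mod_cast hm u hu) _)
  have hB : (0 : ℝ) < ∏ u ∈ P, (c u : ℝ) ^ m u :=
    Finset.prod_pos (fun u hu => pow_pos (by exact_mod_cast hc u hu) _)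
  have hlhs : (0 : ℝ) < (q : ℝ) ^ (α * ∑ u ∈ P, (m u : ℕ)) * (∏ u ∈ P, (m u : ℝ) ^ m u) ^ β := by
    positivity
  have hlog := Real.log_le_log hlhs hR
  rw [Real.log_mul (by positivity) (by positivity), Real.log_pow, Real.log_pow, Real.log_pow,
    Real.log_prod, Real.log_prod] at hlog
  · simp only [Real.log_pow] at hlog
    have e : ∑ u ∈ P, (m u : ℝ) * (Real.log (c u) - Real.log (m u)) =
        ∑ u ∈ P, (m u : ℝ) * Real.log (c u) - ∑ u ∈ P, (m u : ℝ) * Real.log (m u) := by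
      rw [← Finset.sum_sub_distrib]
      apply Finset.sum_congr rfl
      intro u _
      ring
    rw [e]
    push_cast at hlog ⊢
    linarith
  · intro u hu
    exact (pow_pos (by exact_mod_cast hc u hu) _).ne'
  · intro u hu
    exact (pow_pos (by exact_mod_cast hm u hu) _).ne'

/-- Counting (entropy) criterion. `m` assigns a positive integer count to each progression of
`P`; `mcount` gives the induced counts on the three coordinate sets. If the three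
natural-number inequalities hold, then the trilinear Hilbert transform is unbounded at every
Holder tuple with `β < α1 / p1 + α2 / p2 + α3 / p3`. -/
theorem unbounded_of_counts (q : ℕ) (hq : 2 ≤ q) (P : Finset (ℤ × ℤ))
    (hP : ∀ u ∈ P, ∀ v ∈ P, u.1 % (q : ℤ) = v.1 % (q : ℤ) → u = v)
    (m : ℤ × ℤ → ℕ) (hm : ∀ u ∈ P, 0 < m u) (hPne : P.Nonempty)
    (α1 α2 α3 β : ℕ) (hβ : 0 < β)
    (h1 : q ^ (α1 * ∑ u ∈ P, m u) * (∏ u ∈ P, m u ^ m u) ^ β ≤
      (∏ u ∈ P, mcount P m (fun u => u.1 - u.2) (u.1 - u.2) ^ m u) ^ β)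
    (h2 : q ^ (α2 * ∑ u ∈ P, m u) * (∏ u ∈ P, m u ^ m u) ^ β ≤
      (∏ u ∈ P, mcount P m (fun u => u.1 - 2 * u.2) (u.1 - 2 * u.2) ^ m u) ^ β)
    (h3 : q ^ (α3 * ∑ u ∈ P, m u) * (∏ u ∈ P, m u ^ m u) ^ β ≤
      (∏ u ∈ P, mcount P m (fun u => u.1 - 3 * u.2) (u.1 - 3 * u.2) ^ m u) ^ β)
    {p1 p2 p3 r : ℝ≥0∞} (hH : IsHolderTuple p1 p2 p3 r)
    (h : (β : ℝ) < α1 * (1 / p1.toReal) + α2 * (1 / p2.toReal) + α3 * (1 / p3.toReal)) :
    ¬ BoundedAt p1 p2 p3 r := by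
  obtain ⟨hr0, hrt, hs⟩ := holder_real hH
  have hρ : 0 < r.toReal := ENNReal.toReal_pos hr0 hrt
  have ha1 : 0 ≤ 1 / p1.toReal := by positivity
  have ha2 : 0 ≤ 1 / p2.toReal := by positivity
  have ha3 : 0 ≤ 1 / p3.toReal := by positivity
  set a1 : ℝ := 1 / p1.toReal with ha1def
  set a2 : ℝ := 1 / p2.toReal with ha2def
  set a3 : ℝ := 1 / p3.toReal with ha3def
  set ρ : ℝ := r.toReal with hρdef
  have hρa : ρ * (a1 + a2 + a3) = 1 := by
    rw [← hs]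
    field_simp
  set f1 : ℤ × ℤ → ℤ := fun u => u.1 - u.2 with hf1
  set f2 : ℤ × ℤ → ℤ := fun u => u.1 - 2 * u.2 with hf2
  set f3 : ℤ × ℤ → ℤ := fun u => u.1 - 3 * u.2 with hf3
  have hMpos : 0 < ∑ u ∈ P, m u := Finset.sum_pos hm hPne
  set MR : ℝ := ((∑ u ∈ P, m u : ℕ) : ℝ) with hMR
  have hMR0 : 0 < MR := by rw [hMR]; exact_mod_cast hMpos
  have hcpos : ∀ (f : ℤ × ℤ → ℤ), ∀ u ∈ P, 0 < mcount P m f (f u) := fun f u hu =>
    lt_of_lt_of_le (hm u hu) (le_mcount P m f hu)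
  have hsumw : ∀ (f : ℤ × ℤ → ℤ), ∑ d ∈ P.image f, (mcount P m f d : ℝ) / MR ≤ 1 := by
    intro f
    rw [← Finset.sum_div, div_le_one hMR0, hMR]
    have := sum_mcount P m f
    exact_mod_cast this.le
  have hwpos : ∀ (f : ℤ × ℤ → ℤ), ∀ u ∈ P, 0 < (mcount P m f (f u) : ℝ) / MR := by
    intro f u hu
    apply div_pos _ hMR0
    exact_mod_cast hcpos f u hu
  apply unbounded_of_weights q hq P hP (fun d => (mcount P m f1 d : ℝ) / MR)
    (fun d => (mcount P m f2 d : ℝ) / MR) (fun d => (mcount P m f3 d : ℝ) / MR)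
    (hwpos f1) (hwpos f2) (hwpos f3) (hsumw f1) (hsumw f2) (hsumw f3) p1 p2 p3 r hr0 hrt
  have hq0 : (0 : ℝ) < (q : ℝ) := by
    have : 0 < q := by omega
    exact_mod_cast this
  have hlq : 0 < Real.log (q : ℝ) := by
    apply Real.log_pos
    have : 1 < q := by omega
    exact_mod_cast this
  have hμsum : ∑ u ∈ P, (m u : ℝ) / MR = 1 := by
    rw [← Finset.sum_div, hMR]
    push_cast
    rw [div_self]
    have : (0 : ℝ) < ∑ u ∈ P, (m u : ℝ) := by
      have := hMR0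
      rw [hMR] at this
      push_cast at this
      exact this
    exact this.ne'
  have hμpos : ∀ u ∈ P, (0 : ℝ) < (m u : ℝ) / MR := by
    intro u hu
    apply div_pos _ hMR0
    exact_mod_cast hm u hu
  apply gap_of_entropy P (fun u => (m u : ℝ) / MR) hμpos hμsum
    (fun u => (mcount P m f1 (f1 u) : ℝ) / MR) (fun u => (mcount P m f2 (f2 u) : ℝ) / MR)
    (fun u => (mcount P m f3 (f3 u) : ℝ) / MR) (hwpos f1) (hwpos f2) (hwpos f3) a1 a2 a3 ρ
    (q : ℝ) hq0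
  have F1 := log_of_counts q hq P m (fun u => mcount P m f1 (f1 u)) hm (hcpos f1) α1 β h1
  have F2 := log_of_counts q hq P m (fun u => mcount P m f2 (f2 u)) hm (hcpos f2) α2 β h2
  have F3 := log_of_counts q hq P m (fun u => mcount P m f3 (f3 u)) hm (hcpos f3) α3 β h3
  set L1 : ℝ := ∑ u ∈ P, (m u : ℝ) * (Real.log (mcount P m f1 (f1 u)) - Real.log (m u)) with hL1
  set L2 : ℝ := ∑ u ∈ P, (m u : ℝ) * (Real.log (mcount P m f2 (f2 u)) - Real.log (m u)) with hL2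
  set L3 : ℝ := ∑ u ∈ P, (m u : ℝ) * (Real.log (mcount P m f3 (f3 u)) - Real.log (m u)) with hL3
  have hsumeq : ∑ u ∈ P, (m u : ℝ) / MR * (ρ * (a1 * Real.log ((mcount P m f1 (f1 u) : ℝ) / MR) +
      a2 * Real.log ((mcount P m f2 (f2 u) : ℝ) / MR) +
      a3 * Real.log ((mcount P m f3 (f3 u) : ℝ) / MR)) - Real.log ((m u : ℝ) / MR)) =
      ρ / MR * (a1 * L1 + a2 * L2 + a3 * L3) := by
    rw [hL1, hL2, hL3, Finset.mul_sum, Finset.mul_sum, Finset.mul_sum, ← Finset.sum_add_distrib,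
      ← Finset.sum_add_distrib, Finset.mul_sum]
    apply Finset.sum_congr rfl
    intro u hu
    have hmu : (0 : ℝ) < (m u : ℝ) := by exact_mod_cast hm u hu
    have hc1 : (0 : ℝ) < (mcount P m f1 (f1 u) : ℝ) := by exact_mod_cast hcpos f1 u hu
    have hc2 : (0 : ℝ) < (mcount P m f2 (f2 u) : ℝ) := by exact_mod_cast hcpos f2 u hu
    have hc3 : (0 : ℝ) < (mcount P m f3 (f3 u) : ℝ) := by exact_mod_cast hcpos f3 u hu
    rw [Real.log_div hc1.ne' hMR0.ne', Real.log_div hc2.ne' hMR0.ne',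
      Real.log_div hc3.ne' hMR0.ne', Real.log_div hmu.ne' hMR0.ne']
    linear_combination ((m u : ℝ) / MR * (Real.log (m u) - Real.log MR)) * hρa
  rw [hsumeq]
  have hβ0 : (0 : ℝ) < (β : ℝ) := by exact_mod_cast hβ
  have G1 : (α1 : ℝ) * MR * Real.log q * a1 ≤ β * L1 * a1 := mul_le_mul_of_nonneg_right F1 ha1
  have G2 : (α2 : ℝ) * MR * Real.log q * a2 ≤ β * L2 * a2 := mul_le_mul_of_nonneg_right F2 ha2
  have G3 : (α3 : ℝ) * MR * Real.log q * a3 ≤ β * L3 * a3 := mul_le_mul_of_nonneg_right F3 ha3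
  have hkey : (β : ℝ) * (MR * Real.log q) < β * (a1 * L1 + a2 * L2 + a3 * L3) := by
    have hpos : 0 < MR * Real.log q := mul_pos hMR0 hlq
    have h' : (β : ℝ) * (MR * Real.log q) <
        (α1 * a1 + α2 * a2 + α3 * a3) * (MR * Real.log q) := mul_lt_mul_of_pos_right h hpos
    nlinarith
  have hkey' : MR * Real.log q < a1 * L1 + a2 * L2 + a3 * L3 := lt_of_mul_lt_mul_left hkey hβ0.le
  have hfin : ρ * Real.log q = ρ / MR * (MR * Real.log q) := by
    field_simp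
  rw [hfin]
  exact mul_lt_mul_of_pos_left hkey' (div_pos hρ hMR0)

end Vale.Agent.Lib.P141
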