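import Mathlib
import Vale.Agent.Lib.P141.Defs
import Vale.Agent.Lib.P141.Explicit
import Vale.Agent.Lib.P141.Counts

namespace Vale.Agent.Lib.P141

open scoped ENNReal NNReal

/-- Configuration E: `q = 14`, 14 progressions, digit sets of sizes 4, 4, 5
(a 4 x 4 grid with two opposite corners removed). -/
def cfgE : Finset (ℤ × ℤ) :=
  {(-2, -3), (-3, -4), (-4, -5), (2, -1), (1, -2), (0, -3), (-1, -4), (6, 1), (5, 0), (4, -1),
    (3, -2), (9, 2), (8, 1), (7, 0)}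

/-- Integer counts (total 100) on configuration E, indexed by the first coordinate. -/
def cntE (u : ℤ × ℤ) : ℕ :=
  ([5, 7, 8, 5, 8, 10, 7, 7, 10, 8, 5, 8, 7, 5] : List ℕ).getD (u.1 + 4).toNat 1

/-- Configuration F: `q = 9`, 9 progressions, digit sets of sizes 3, 5, 3. -/
def cfgF : Finset (ℤ × ℤ) :=
  {(0, 0), (-1, -1), (-2, -2), (3, 1), (2, 0), (1, -1), (6, 2), (5, 1), (4, 0)}

theorem cfgE_h1 : 14 ^ (68 * ∑ u ∈ cfgE, cntE u) * (∏ u ∈ cfgE, cntE u ^ cntE u) ^ 144 ≤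
    (∏ u ∈ cfgE, mcount cfgE cntE (fun u => u.1 - u.2) (u.1 - u.2) ^ cntE u) ^ 144 := by
  decide +kernel

theorem cfgE_h2 : 14 ^ (68 * ∑ u ∈ cfgE, cntE u) * (∏ u ∈ cfgE, cntE u ^ cntE u) ^ 144 ≤
    (∏ u ∈ cfgE, mcount cfgE cntE (fun u => u.1 - 2 * u.2) (u.1 - 2 * u.2) ^ cntE u) ^ 144 := by
  decide +kernel

theorem cfgE_h3 : 14 ^ (61 * ∑ u ∈ cfgE, cntE u) * (∏ u ∈ cfgE, cntE u ^ cntE u) ^ 144 ≤
    (∏ u ∈ cfgE, mcount cfgE cntE (fun u => u.1 - 3 * u.2) (u.1 - 3 * u.2) ^ cntE u) ^ 144 := by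
  decide +kernel

theorem cfgE_inj : ∀ u ∈ cfgE, ∀ v ∈ cfgE, u.1 % ((14 : ℕ) : ℤ) = v.1 % ((14 : ℕ) : ℤ) → u = v := by
  decide +kernel

theorem cfgE_pos : ∀ u ∈ cfgE, 0 < cntE u := by
  decide +kernel

/-- Unboundedness on the half-space `144 < 68 / p1 + 68 / p2 + 61 / p3` (configuration E with
the counts `cntE`). -/
theorem unbounded_E {p1 p2 p3 r : ℝ≥0∞} (hH : IsHolderTuple p1 p2 p3 r)
    (h : (144 : ℝ) < 68 * (1 / p1.toReal) + 68 * (1 / p2.toReal) + 61 * (1 / p3.toReal)) :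
    ¬ BoundedAt p1 p2 p3 r := by
  apply unbounded_of_counts 14 (by norm_num) cfgE cfgE_inj cntE cfgE_pos (by decide)
    68 68 61 144 (by norm_num) cfgE_h1 cfgE_h2 cfgE_h3 hH
  exact_mod_cast h

theorem inv_toReal_le_one {p : ℝ≥0∞} (hp : 1 < p) : 1 / p.toReal ≤ 1 := by
  by_cases htop : p = ∞
  · rw [htop]; simp
  · have h1 : (1 : ℝ) < p.toReal := by
      have := (ENNReal.toReal_lt_toReal ENNReal.one_ne_top htop).mpr hp
      simpa using this
    rw [div_le_one (by linarith)]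
    exact h1.le

/-- Unboundedness at every Holder tuple with `r < 9/20`. -/
theorem unbounded_nine_twentieths {p1 p2 p3 r : ℝ≥0∞} (hH : IsHolderTuple p1 p2 p3 r)
    (h : r < 9 / 20) : ¬ BoundedAt p1 p2 p3 r := by
  apply unbounded_E hH
  obtain ⟨hr0, hrt, hs⟩ := holder_real hH
  have hρ : 0 < r.toReal := ENNReal.toReal_pos hr0 hrt
  have h920 : ((9 : ℝ≥0∞) / 20) ≠ ∞ := by
    apply ENNReal.div_ne_top (by norm_num) (by norm_num)
  have hlt : r.toReal < 9 / 20 := by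
    have := (ENNReal.toReal_lt_toReal hrt h920).mpr h
    rw [ENNReal.toReal_div] at this
    norm_num at this
    linarith
  have hinv : 20 / 9 < 1 / r.toReal := by
    rw [lt_div_iff₀ hρ]
    linarith
  have a3 := inv_toReal_le_one hH.2.2.1
  rw [hs] at hinv
  linarith

theorem cfgB_inj : ∀ u ∈ cfgB, ∀ v ∈ cfgB, u.1 % ((16 : ℕ) : ℤ) = v.1 % ((16 : ℕ) : ℤ) → u = v := by
  decide +kernel

theorem cfgD_inj : ∀ u ∈ cfgD, ∀ v ∈ cfgD, u.1 % ((16 : ℕ) : ℤ) = v.1 % ((16 : ℕ) : ℤ) → u = v := by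
  decide +kernel

theorem cfgF_inj : ∀ u ∈ cfgF, ∀ v ∈ cfgF, u.1 % ((9 : ℕ) : ℤ) = v.1 % ((9 : ℕ) : ℤ) → u = v := by
  decide +kernel

/-- Unboundedness on the half-space `6 < 3 / p1 + 3 / p2 + 2 / p3` (configuration B, uniform
counts, entropy of the third coordinate). -/
theorem unbounded_B2 {p1 p2 p3 r : ℝ≥0∞} (hH : IsHolderTuple p1 p2 p3 r)
    (h : (6 : ℝ) < 3 * (1 / p1.toReal) + 3 * (1 / p2.toReal) + 2 * (1 / p3.toReal)) :
    ¬ BoundedAt p1 p2 p3 r := by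
  apply unbounded_of_counts 16 (by norm_num) cfgB cfgB_inj (fun _ => 1) (by intro u _; norm_num)
    (by decide) 3 3 2 6 (by norm_num) (by decide +kernel) (by decide +kernel)
    (by decide +kernel) hH
  exact_mod_cast h

/-- Unboundedness on the half-space `6 < 2 / p1 + 3 / p2 + 3 / p3` (configuration D, uniform
counts, entropy of the first coordinate). -/
theorem unbounded_D2 {p1 p2 p3 r : ℝ≥0∞} (hH : IsHolderTuple p1 p2 p3 r)
    (h : (6 : ℝ) < 2 * (1 / p1.toReal) + 3 * (1 / p2.toReal) + 3 * (1 / p3.toReal)) :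
    ¬ BoundedAt p1 p2 p3 r := by
  apply unbounded_of_counts 16 (by norm_num) cfgD cfgD_inj (fun _ => 1) (by intro u _; norm_num)
    (by decide) 2 3 3 6 (by norm_num) (by decide +kernel) (by decide +kernel)
    (by decide +kernel) hH
  exact_mod_cast h

/-- Unboundedness on the half-space `10 < 5 / p1 + 3 / p2 + 5 / p3` (configuration F, uniform
counts, entropy of the second coordinate). -/
theorem unbounded_F {p1 p2 p3 r : ℝ≥0∞} (hH : IsHolderTuple p1 p2 p3 r)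
    (h : (10 : ℝ) < 5 * (1 / p1.toReal) + 3 * (1 / p2.toReal) + 5 * (1 / p3.toReal)) :
    ¬ BoundedAt p1 p2 p3 r := by
  apply unbounded_of_counts 9 (by norm_num) cfgF cfgF_inj (fun _ => 1) (by intro u _; norm_num)
    (by decide) 5 3 5 10 (by norm_num) (by decide +kernel) (by decide +kernel)
    (by decide +kernel) hH
  exact_mod_cast h

end Vale.Agent.Lib.P141
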